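import Vale.Agent.P088.R2.H341.V.Bas

/-!
# P088, two arbitrary pairs near the flat one: the trace free part
-/

open MeasureTheory Set
open scoped ContDiff Matrix

noncomputable section

namespace Vale.Agent.P088.PJ.H341

open Vale.Agent.P088.LR Vale.Agent.P088.LR.U Vale.Agent.P088.LR.H158
open Vale.Agent.P088.HY (VV Bs Bn Un DB ipm tfp)
open Vale.Agent.P088.PJ

variable {n N : ℕ}

/-- `s₂ - s₁`. -/
def hd (s₁ s₂ : MF n) : MF n := fun x => s₂ x - s₁ x

/-- `∂_i D_j + ∂_j D_i`. -/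
def sy (D : Fin n → MC n N) (i j : Fin n) : MC n N := fun x => pdm i (D j) x + pdm j (D i) x

/-- The derivative of order one of `D`, squared. -/
def SD (D : Fin n → MC n N) (x : V n) : ℝ := ∑ a, ∑ i, nq (pdm i (D a) x)

theorem SD_nonneg (D : Fin n → MC n N) (x : V n) : 0 ≤ SD D x :=
  Finset.sum_nonneg fun _ _ => Finset.sum_nonneg fun _ _ => nq_nonneg _

theorem tfC_add (s : MF n) {H A B : Fin n → Fin n → MC n N} {x : V n}
    (h : ∀ i j, H i j x = A i j x + B i j x) (i j : Fin n) :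
    tfC s H i j x = tfC s A i j x + tfC s B i j x := by
  unfold tfC ipC
  simp only [h, smul_add, Finset.sum_add_distrib]
  abel

theorem ipm_tf {s H : MF n} {x : V n} (h0 : ipm s s x ≠ 0) : ipm s (tfp s H) x = 0 := by
  have e : ipm s (tfp s H) x = ipm s H x - (ipm s H x / ipm s s x) * ipm s s x := by
    unfold tfp
    conv_lhs => unfold ipm
    conv_rhs => rw [show ipm s s x = ∑ i, ∑ j, s x i j * s x i j from rfl]
    conv_rhs => enter [1]; unfold ipm
    rw [Finset.mul_sum, ← Finset.sum_sub_distrib]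
    refine Finset.sum_congr rfl fun i _ => ?_
    rw [Finset.mul_sum, ← Finset.sum_sub_distrib]
    refine Finset.sum_congr rfl fun j _ => ?_
    simp only [Matrix.sub_apply, Matrix.smul_apply, smul_eq_mul]
    unfold ipm
    ring
  rw [e, div_mul_cancel₀ _ h0, sub_self]

/-- The trace free part is orthogonal to `s`. -/
theorem ipC_tf {s : MF n} {H : Fin n → Fin n → MC n N} {x : V n} (h0 : ipm s s x ≠ 0) :
    ipC s (tfC s H) x = 0 := by
  have e : ipC s (tfC s H) x = ipC s H x - ((ipm s s x / ipm s s x : ℝ) : ℂ) • ipC s H x := by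
    have e1 : ∀ i j, (s x i j : ℂ) • tfC s H i j x = (s x i j : ℂ) • H i j x
        - ((s x i j * s x i j / ipm s s x : ℝ) : ℂ) • ipC s H x := by
      intro i j
      unfold tfC
      rw [smul_sub, smul_smul]
      congr 2
      push_cast
      ring
    have e2 : ((ipm s s x / ipm s s x : ℝ) : ℂ) = ∑ i, ∑ j, ((s x i j * s x i j / ipm s s x : ℝ) : ℂ) := by
      conv_lhs => enter [1, 1]; unfold ipm
      rw [Finset.sum_div]
      push_cast
      refine Finset.sum_congr rfl fun i _ => ?_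
      rw [Finset.sum_div]
    conv_lhs => unfold ipC
    simp only [e1, Finset.sum_sub_distrib]
    rw [e2, Finset.sum_smul]
    congr 1
    refine Finset.sum_congr rfl fun i _ => ?_
    rw [Finset.sum_smul]
  rw [e, div_self h0]
  simp

/-- The trace free part of `Z`. -/
theorem tf_Z {s₁ s₂ : MF n} {P₁ P₂ : MC n N} {x : V n} (h0 : ipm s₁ s₁ x ≠ 0) (i j : Fin n) :
    tfC s₁ (Zt s₁ s₂ P₁ P₂) i j x = ((tfp s₁ (hd s₁ s₂) x i j : ℝ) : ℂ) • P₂ x := by
  have e0 : ∀ i j, Zt s₁ s₂ P₁ P₂ i j x =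
      (hd s₁ s₂ x i j : ℂ) • P₂ x + (s₁ x i j : ℂ) • (P₂ x - P₁ x) := by
    intro i j
    unfold Zt TP hd
    ext a b
    simp only [Matrix.sub_apply, Matrix.add_apply, Matrix.smul_apply, smul_eq_mul]
    push_cast
    ring
  have e1 : ipC s₁ (Zt s₁ s₂ P₁ P₂) x =
      (ipm s₁ (hd s₁ s₂) x : ℂ) • P₂ x + (ipm s₁ s₁ x : ℂ) • (P₂ x - P₁ x) := by
    unfold ipC ipm
    simp only [e0, smul_add, Finset.sum_add_distrib, smul_smul]
    push_cast
    simp only [Finset.sum_smul]
  have h0' : (ipm s₁ s₁ x : ℂ) ≠ 0 := by exact_mod_cast h0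
  unfold tfC
  rw [e0, e1]
  unfold tfp
  ext a b
  simp only [Matrix.sub_apply, Matrix.add_apply, Matrix.smul_apply, smul_eq_mul]
  push_cast
  field_simp
  ring

/-- `W` as a sum. -/
theorem tf_V {s₁ s₂ : MF n} {P₁ P₂ : MC n N} {D : Fin n → MC n N} {x : V n}
    (h0 : ipm s₁ s₁ x ≠ 0) (i j : Fin n) :
    tfC s₁ (Vt s₁ s₂ P₁ P₂ D) i j x =
      ((tfp s₁ (hd s₁ s₂) x i j : ℝ) : ℂ) • P₂ x + tfC s₁ (sy D) i j x := by
  rw [← tf_Z h0]
  refine tfC_add s₁ (fun i j => ?_) i j
  unfold Vt sy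
  abel

/-- Real trace of the trace free part. -/
theorem re_tr_tf {s : MF n} {H : Fin n → Fin n → MC n N} {x : V n}
    (h : ∀ i j, ((H i j x).trace).re = 0) (i j : Fin n) : ((tfC s H i j x).trace).re = 0 := by
  unfold tfC ipC
  rw [Matrix.trace_sub, Matrix.trace_smul, Matrix.trace_sum]
  simp only [Matrix.trace_sum, Matrix.trace_smul, smul_eq_mul, Complex.sub_re, Complex.re_ofReal_mul,
    Complex.re_sum, h, mul_zero, Finset.sum_const_zero, sub_zero]

/-- The real trace of the derivatives of `D` vanishes. -/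
theorem re_tr_pdm {U : MC n N} (hU : SmC U) (h : ∀ x, ((U x).trace).re = 0) (i : Fin n) (x : V n) :
    ((pdm i U x).trace).re = 0 := by
  have e1 : (pdm i U x).trace = pd i (fun x => (U x).trace) x := by
    unfold Matrix.trace
    simp only [Matrix.diag_apply, pdm, Matrix.of_apply]
    rw [pd_sum fun a _ => dfa (hU a a) x]
  have hs : ContDiff ℝ ∞ fun x => (U x).trace := by
    unfold Matrix.trace
    simp only [Matrix.diag_apply]
    exact ContDiff.sum fun a _ => hU a a
  have e2 : (pd i (fun x => (U x).trace) x).re = pd i (fun x => ((U x).trace).re) x := by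
    have hd := (Complex.reCLM.hasFDerivAt (x := (U x).trace)).comp x (dfa hs x).hasFDerivAt
    unfold pd
    have e3 : (fun x => ((U x).trace).re) = Complex.reCLM ∘ fun x => (U x).trace := rfl
    rw [e3, hd.fderiv]
    rfl
  rw [e1, e2]
  have e4 : (fun x => ((U x).trace).re) = fun _ => 0 := funext h
  rw [e4]
  exact pd_const _ x i

/-- The real trace of `W`. -/
theorem re_tr_W {s₁ s₂ : MF n} {P₁ P₂ : MC n N} {D : Fin n → MC n N} (hD : ∀ a, SmC (D a))
    (ht : ∀ a x, ((D a x).trace).re = 0) {x : V n} (h0 : ipm s₁ s₁ x ≠ 0) (i j : Fin n) :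
    ((tfC s₁ (Vt s₁ s₂ P₁ P₂ D) i j x).trace).re =
      tfp s₁ (hd s₁ s₂) x i j * ((P₂ x).trace).re := by
  rw [tf_V h0, Matrix.trace_add, Matrix.trace_smul, Complex.add_re, smul_eq_mul,
    Complex.re_ofReal_mul, re_tr_tf, add_zero]
  intro i j
  unfold sy
  rw [Matrix.trace_add, Complex.add_re, re_tr_pdm (hD j) (ht j), re_tr_pdm (hD i) (ht i), add_zero]

/-! ## Numbers -/

theorem ipm_near {s : MF n} {δ : ℝ} (hδ0 : 0 ≤ δ) (hδ1 : δ ≤ 1) {x : V n}
    (h : ∀ i j, |s x i j - (1 : Matrix (Fin n) (Fin n) ℝ) i j| ≤ δ) :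
    |ipm s s x - n| ≤ n ^ 2 * (3 * δ) := by
  have e : (n : ℝ) = ∑ i : Fin n, ∑ j : Fin n, (1 : Matrix (Fin n) (Fin n) ℝ) i j ^ 2 := by
    have : ∀ i : Fin n, ∑ j : Fin n, (1 : Matrix (Fin n) (Fin n) ℝ) i j ^ 2 = 1 := by
      intro i
      rw [Finset.sum_eq_single i]
      · simp
      · intro j _ hj
        rw [Matrix.one_apply_ne (Ne.symm hj)]
        simp
      · intro h
        exact absurd (Finset.mem_univ i) h
    simp [this]
  have e2 : ipm s s x - n = ∑ i, ∑ j, (s x i j * s x i j - (1 : Matrix (Fin n) (Fin n) ℝ) i j ^ 2) := by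
    conv_lhs => rw [e]
    unfold ipm
    simp only [Finset.sum_sub_distrib]
  rw [e2]
  refine (Finset.abs_sum_le_sum_abs _ _).trans ?_
  calc ∑ i, |∑ j, (s x i j * s x i j - (1 : Matrix (Fin n) (Fin n) ℝ) i j ^ 2)|
      ≤ ∑ _i : Fin n, ∑ _j : Fin n, 3 * δ := by
        refine Finset.sum_le_sum fun i _ => (Finset.abs_sum_le_sum_abs _ _).trans ?_
        refine Finset.sum_le_sum fun j _ => ?_
        have h1 := h i j
        have h2 : |(1 : Matrix (Fin n) (Fin n) ℝ) i j| ≤ 1 := by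
          by_cases hij : i = j
          · subst hij
            simp
          · rw [Matrix.one_apply_ne hij]
            simp
        have e3 : s x i j * s x i j - (1 : Matrix (Fin n) (Fin n) ℝ) i j ^ 2 =
            (s x i j - (1 : Matrix (Fin n) (Fin n) ℝ) i j) *
              ((s x i j - (1 : Matrix (Fin n) (Fin n) ℝ) i j) +
                2 * (1 : Matrix (Fin n) (Fin n) ℝ) i j) := by ring
        rw [e3, abs_mul]
        have h3 : |(s x i j - (1 : Matrix (Fin n) (Fin n) ℝ) i j) +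
            2 * (1 : Matrix (Fin n) (Fin n) ℝ) i j| ≤ 3 := by
          refine (abs_add_le _ _).trans ?_
          rw [abs_mul, abs_two]
          linarith
        calc _ ≤ δ * 3 := mul_le_mul h1 h3 (abs_nonneg _) hδ0
          _ = 3 * δ := by ring
    _ = n ^ 2 * (3 * δ) := by simp; ring

theorem ipm_ge {s : MF n} {δ : ℝ} (hδ0 : 0 ≤ δ) (hδ1 : δ ≤ 1) (hδn : 6 * n * δ ≤ 1) {x : V n}
    (h : ∀ i j, |s x i j - (1 : Matrix (Fin n) (Fin n) ℝ) i j| ≤ δ) : (n : ℝ) / 2 ≤ ipm s s x := by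
  have h1 := ipm_near hδ0 hδ1 h
  have h2 := (abs_le.1 h1).1
  have h3 : (n : ℝ) ^ 2 * (3 * δ) ≤ n / 2 := by
    have hn : (0 : ℝ) ≤ n := Nat.cast_nonneg n
    nlinarith
  linarith

/-- The coefficient of the trace part. -/
theorem coef_near {s : MF n} (hn : 1 ≤ n) {δ : ℝ} (hδ0 : 0 ≤ δ) (hδ1 : δ ≤ 1)
    (hδn : 6 * n * δ ≤ 1) {x : V n}
    (h : ∀ i j, |s x i j - (1 : Matrix (Fin n) (Fin n) ℝ) i j| ≤ δ) (i j : Fin n) :
    |s x i j / ipm s s x - (if i = j then (1 / n : ℝ) else 0)| ≤ 8 * δ ∧ |s x i j / ipm s s x| ≤ 4 := by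
  have hn0 : (1 : ℝ) ≤ n := by exact_mod_cast hn
  have h1 := ipm_near hδ0 hδ1 h
  have h2 := ipm_ge hδ0 hδ1 hδn h
  have hp : 0 < ipm s s x := by linarith
  have h3 : |s x i j| ≤ 2 := by
    have h4 := h i j
    have h5 : |(1 : Matrix (Fin n) (Fin n) ℝ) i j| ≤ 1 := by
      by_cases hij : i = j
      · subst hij
        simp
      · rw [Matrix.one_apply_ne hij]
        simp
    calc |s x i j| = |(s x i j - (1 : Matrix (Fin n) (Fin n) ℝ) i j) +
          (1 : Matrix (Fin n) (Fin n) ℝ) i j| := by rw [sub_add_cancel]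
      _ ≤ δ + 1 := (abs_add_le _ _).trans (add_le_add h4 h5)
      _ ≤ 2 := by linarith
  constructor
  · have e : s x i j / ipm s s x - (if i = j then 1 / (n : ℝ) else 0) =
        ((s x i j - (1 : Matrix (Fin n) (Fin n) ℝ) i j) -
          (1 : Matrix (Fin n) (Fin n) ℝ) i j * ((ipm s s x - n) / n)) / ipm s s x := by
      by_cases hij : i = j
      · subst hij
        rw [if_pos rfl, Matrix.one_apply_eq]
        field_simp
        ring
      · rw [if_neg hij, Matrix.one_apply_ne hij]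
        ring
    rw [e, abs_div, abs_of_pos hp, div_le_iff₀ hp]
    have h6 : |(s x i j - (1 : Matrix (Fin n) (Fin n) ℝ) i j) -
          (1 : Matrix (Fin n) (Fin n) ℝ) i j * ((ipm s s x - n) / n)| ≤ δ + 3 * n * δ := by
      refine (abs_sub _ _).trans (add_le_add (h i j) ?_)
      have h5 : |(1 : Matrix (Fin n) (Fin n) ℝ) i j| ≤ 1 := by
        by_cases hij : i = j
        · subst hij
          simp
        · rw [Matrix.one_apply_ne hij]
          simp
      rw [abs_mul, abs_div, abs_of_pos (by linarith : (0 : ℝ) < n)]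
      have h7 : |ipm s s x - n| / n ≤ 3 * n * δ := by
        rw [div_le_iff₀ (by linarith)]
        calc _ ≤ _ := h1
          _ = _ := by ring
      calc _ ≤ 1 * (3 * n * δ) := mul_le_mul h5 h7 (by positivity) zero_le_one
        _ = _ := one_mul _
    refine h6.trans ?_
    nlinarith
  · rw [abs_div, abs_of_pos hp, div_le_iff₀ hp]
    linarith

/-- The difference between the trace free parts with respect to `1` and to `s`. -/
theorem korn_err {s : MF n} (hn : 1 ≤ n) {δ : ℝ} (hδ0 : 0 ≤ δ) (hδ1 : δ ≤ 1)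
    (hδn : 6 * n * δ ≤ 1) {D : Fin n → MC n N} {x : V n}
    (h : ∀ i j, |s x i j - (1 : Matrix (Fin n) (Fin n) ℝ) i j| ≤ δ) (i j : Fin n) :
    nq (sy D i j x - (if i = j then (2 / n : ℂ) • ∑ l, pdm l (D l) x else 0) - tfC s (sy D) i j x) ≤
      640 * n ^ 2 * δ ^ 2 * SD D x := by
  have hn0 : (1 : ℝ) ≤ n := by exact_mod_cast hn
  obtain ⟨c1, c2⟩ := coef_near hn hδ0 hδ1 hδn h i j
  set R : ℝ := s x i j / ipm s s x with hR
  set T : Matrix (Fin N) (Fin N) ℂ := ∑ k, ∑ l,
    ((s x k l - (1 : Matrix (Fin n) (Fin n) ℝ) k l : ℝ) : ℂ) • sy D k l x with hT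
  set V0 : Matrix (Fin N) (Fin N) ℂ := ∑ l, pdm l (D l) x with hV0
  have e1 : ipC s (sy D) x = T + (2 : ℂ) • V0 := by
    have e2 : ∑ k : Fin n, ∑ l : Fin n, (((1 : Matrix (Fin n) (Fin n) ℝ) k l : ℝ) : ℂ) • sy D k l x =
        (2 : ℂ) • V0 := by
      rw [hV0, Finset.smul_sum]
      refine Finset.sum_congr rfl fun k _ => ?_
      rw [Finset.sum_eq_single k]
      · rw [Matrix.one_apply_eq]
        unfold sy
        rw [Complex.ofReal_one, one_smul, two_smul]
      · intro l _ hl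
        rw [Matrix.one_apply_ne (Ne.symm hl)]
        simp
      · intro h
        exact absurd (Finset.mem_univ k) h
    rw [← e2, hT]
    unfold ipC
    rw [← Finset.sum_add_distrib]
    refine Finset.sum_congr rfl fun k _ => ?_
    rw [← Finset.sum_add_distrib]
    refine Finset.sum_congr rfl fun l _ => ?_
    rw [← add_smul]
    congr 1
    push_cast
    ring
  have e3 : sy D i j x - (if i = j then (2 / n : ℂ) • V0 else 0) - tfC s (sy D) i j x =
      (R : ℂ) • T + ((2 * (R - (if i = j then (1 / n : ℝ) else 0)) : ℝ) : ℂ) • V0 := by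
    unfold tfC
    rw [e1, ← hR]
    by_cases hij : i = j
    · rw [if_pos hij, if_pos hij]
      ext a b
      simp only [Matrix.sub_apply, Matrix.add_apply, Matrix.smul_apply, smul_eq_mul]
      push_cast
      ring
    · rw [if_neg hij, if_neg hij]
      ext a b
      simp only [Matrix.sub_apply, Matrix.add_apply, Matrix.smul_apply, smul_eq_mul,
        Matrix.zero_apply]
      push_cast
      ring
  rw [e3]
  refine (nq_add _ _).trans ?_
  rw [nq_smul, nq_smul, Complex.norm_real, Complex.norm_real, Real.norm_eq_abs, Real.norm_eq_abs]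
  have hS := SD_nonneg D x
  have hsy : ∑ k, ∑ l, nq (sy D k l x) ≤ 4 * SD D x := by
    have h1 : ∀ k l, nq (sy D k l x) ≤ 2 * (nq (pdm k (D l) x) + nq (pdm l (D k) x)) := fun k l =>
      nq_add _ _
    calc ∑ k, ∑ l, nq (sy D k l x) ≤ ∑ k, ∑ l, 2 * (nq (pdm k (D l) x) + nq (pdm l (D k) x)) :=
          Finset.sum_le_sum fun k _ => Finset.sum_le_sum fun l _ => h1 k l
      _ = 4 * SD D x := by
          simp only [mul_add, Finset.sum_add_distrib, ← Finset.mul_sum]
          rw [Finset.sum_comm (f := fun k l => nq (pdm k (D l) x))]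
          unfold SD
          ring
  have hT1 : nq T ≤ n ^ 2 * δ ^ 2 * (4 * SD D x) := by
    have h1 : nq T ≤ n * ∑ k, nq (∑ l, ((s x k l - (1 : Matrix (Fin n) (Fin n) ℝ) k l : ℝ) : ℂ) •
        sy D k l x) := by
      have := nq_sum (Finset.univ : Finset (Fin n)) (fun k => ∑ l,
        ((s x k l - (1 : Matrix (Fin n) (Fin n) ℝ) k l : ℝ) : ℂ) • sy D k l x)
      rwa [Finset.card_univ, Fintype.card_fin] at this
    refine h1.trans ?_
    have h2 : ∀ k, nq (∑ l, ((s x k l - (1 : Matrix (Fin n) (Fin n) ℝ) k l : ℝ) : ℂ) •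
        sy D k l x) ≤ n * ∑ l, δ ^ 2 * nq (sy D k l x) := by
      intro k
      have := nq_sum (Finset.univ : Finset (Fin n)) (fun l =>
        ((s x k l - (1 : Matrix (Fin n) (Fin n) ℝ) k l : ℝ) : ℂ) • sy D k l x)
      rw [Finset.card_univ, Fintype.card_fin] at this
      refine this.trans (mul_le_mul_of_nonneg_left ?_ (Nat.cast_nonneg _))
      refine Finset.sum_le_sum fun l _ => ?_
      rw [nq_smul, Complex.norm_real, Real.norm_eq_abs]
      exact mul_le_mul_of_nonneg_right (pow_le_pow_left₀ (abs_nonneg _) (h k l) 2) (nq_nonneg _)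
    calc (n : ℝ) * ∑ k, nq (∑ l, ((s x k l - (1 : Matrix (Fin n) (Fin n) ℝ) k l : ℝ) : ℂ) •
          sy D k l x) ≤ n * ∑ k, (n * ∑ l, δ ^ 2 * nq (sy D k l x)) :=
          mul_le_mul_of_nonneg_left (Finset.sum_le_sum fun k _ => h2 k) (Nat.cast_nonneg _)
      _ = n ^ 2 * δ ^ 2 * ∑ k, ∑ l, nq (sy D k l x) := by
          simp only [← Finset.mul_sum]
          ring
      _ ≤ n ^ 2 * δ ^ 2 * (4 * SD D x) := mul_le_mul_of_nonneg_left hsy (by positivity)
  have hV1 : nq V0 ≤ n * SD D x := by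
    have := nq_sum (Finset.univ : Finset (Fin n)) (fun l => pdm l (D l) x)
    rw [Finset.card_univ, Fintype.card_fin] at this
    refine this.trans (mul_le_mul_of_nonneg_left ?_ (Nat.cast_nonneg _))
    unfold SD
    refine Finset.sum_le_sum fun l _ => ?_
    exact Finset.single_le_sum (f := fun i => nq (pdm i (D l) x)) (fun _ _ => nq_nonneg _)
      (Finset.mem_univ l)
  have hR2 : |R| ^ 2 ≤ 16 := by
    have := pow_le_pow_left₀ (abs_nonneg R) c2 2
    linarith
  have hR3 : |2 * (R - if i = j then 1 / (n : ℝ) else 0)| ^ 2 ≤ 256 * δ ^ 2 := by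
    rw [abs_mul, abs_two]
    have : 2 * |R - if i = j then 1 / (n : ℝ) else 0| ≤ 16 * δ := by linarith
    calc _ ≤ (16 * δ) ^ 2 := pow_le_pow_left₀ (by positivity) this 2
      _ = _ := by ring
  have h1 : |R| ^ 2 * nq T ≤ 16 * (n ^ 2 * δ ^ 2 * (4 * SD D x)) :=
    mul_le_mul hR2 hT1 (nq_nonneg _) (by norm_num)
  have h2 : |2 * (R - if i = j then 1 / (n : ℝ) else 0)| ^ 2 * nq V0 ≤
      256 * δ ^ 2 * (n * SD D x) := mul_le_mul hR3 hV1 (nq_nonneg _) (by positivity)
  have h3 : (n : ℝ) * (δ ^ 2 * SD D x) ≤ n ^ 2 * (δ ^ 2 * SD D x) := by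
    refine mul_le_mul_of_nonneg_right ?_ (by positivity)
    nlinarith
  calc _ ≤ 2 * (16 * (n ^ 2 * δ ^ 2 * (4 * SD D x)) + 256 * δ ^ 2 * (n * SD D x)) := by linarith
    _ = 128 * (n ^ 2 * (δ ^ 2 * SD D x)) + 512 * (n * (δ ^ 2 * SD D x)) := by ring
    _ ≤ 128 * (n ^ 2 * (δ ^ 2 * SD D x)) + 512 * (n ^ 2 * (δ ^ 2 * SD D x)) := by linarith
    _ = _ := by ring

end Vale.Agent.P088.PJ.H341
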