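import Vale.Agent.P088.R2.H551.V.Spec

/-!
# P088, two arbitrary pairs near the flat one: elementary facts

The square `nq` of the Hilbert-Schmidt norm, integrals of continuous functions which vanish off
`bl0 n`, the algebra of `tfC`.
-/

open MeasureTheory Set
open scoped ContDiff Matrix

noncomputable section

namespace Vale.Agent.P088.PJ.H341

open Vale.Agent.P088.LR Vale.Agent.P088.LR.U Vale.Agent.P088.LR.H158
open Vale.Agent.P088.HY (VV Bs Bn Un DB ipm tfp)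
open Vale.Agent.P088.PJ

variable {n N : ℕ}

/-! ## `nq` -/

theorem nq_nonneg (A : Matrix (Fin N) (Fin N) ℂ) : 0 ≤ nq A :=
  Finset.sum_nonneg fun _ _ => Finset.sum_nonneg fun _ _ => sq_nonneg _

theorem nq_zero : nq (0 : Matrix (Fin N) (Fin N) ℂ) = 0 := by simp [nq]

theorem nq_entry (A : Matrix (Fin N) (Fin N) ℂ) (a b : Fin N) : ‖A a b‖ ^ 2 ≤ nq A := by
  have h1 : ‖A a b‖ ^ 2 ≤ ∑ b, ‖A a b‖ ^ 2 :=
    Finset.single_le_sum (f := fun b => ‖A a b‖ ^ 2) (fun _ _ => sq_nonneg _) (Finset.mem_univ b)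
  have h2 : ∑ b, ‖A a b‖ ^ 2 ≤ nq A :=
    Finset.single_le_sum (f := fun a => ∑ b, ‖A a b‖ ^ 2)
      (fun _ _ => Finset.sum_nonneg fun _ _ => sq_nonneg _) (Finset.mem_univ a)
  exact h1.trans h2

theorem nq_eq_zero {A : Matrix (Fin N) (Fin N) ℂ} (h : nq A = 0) : A = 0 := by
  ext a b
  have h1 := nq_entry A a b
  rw [h] at h1
  have h2 : ‖A a b‖ = 0 := by nlinarith [norm_nonneg (A a b)]
  simpa using h2

theorem nq_smul (c : ℂ) (A : Matrix (Fin N) (Fin N) ℂ) : nq (c • A) = ‖c‖ ^ 2 * nq A := by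
  unfold nq
  simp only [Matrix.smul_apply, smul_eq_mul, norm_mul, mul_pow, Finset.mul_sum]

theorem nq_neg (A : Matrix (Fin N) (Fin N) ℂ) : nq (-A) = nq A := by
  unfold nq
  simp only [Matrix.neg_apply, norm_neg]

theorem nq_conj (A : Matrix (Fin N) (Fin N) ℂ) : nq Aᴴ = nq A := by
  unfold nq
  rw [Finset.sum_comm]
  simp only [Matrix.conjTranspose_apply, norm_star]

theorem nsq_add (z w : ℂ) : ‖z + w‖ ^ 2 ≤ 2 * (‖z‖ ^ 2 + ‖w‖ ^ 2) := by
  have h := norm_add_le z w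
  have h1 : ‖z + w‖ ^ 2 ≤ (‖z‖ + ‖w‖) ^ 2 := pow_le_pow_left₀ (norm_nonneg _) h 2
  nlinarith [sq_nonneg (‖z‖ - ‖w‖)]

theorem nq_add (A B : Matrix (Fin N) (Fin N) ℂ) : nq (A + B) ≤ 2 * (nq A + nq B) := by
  unfold nq
  rw [← Finset.sum_add_distrib, Finset.mul_sum]
  refine Finset.sum_le_sum fun a _ => ?_
  rw [← Finset.sum_add_distrib, Finset.mul_sum]
  refine Finset.sum_le_sum fun b _ => ?_
  exact nsq_add _ _

theorem nq_sub (A B : Matrix (Fin N) (Fin N) ℂ) : nq (A - B) ≤ 2 * (nq A + nq B) := by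
  have h := nq_add A (-B)
  rwa [nq_neg, ← sub_eq_add_neg] at h

theorem nsq_sum {ι : Type*} (s : Finset ι) (f : ι → ℂ) :
    ‖∑ i ∈ s, f i‖ ^ 2 ≤ s.card * ∑ i ∈ s, ‖f i‖ ^ 2 := by
  have h1 : ‖∑ i ∈ s, f i‖ ^ 2 ≤ (∑ i ∈ s, ‖f i‖) ^ 2 :=
    pow_le_pow_left₀ (norm_nonneg _) (norm_sum_le _ _) 2
  exact h1.trans sq_sum_le_card_mul_sum_sq

theorem nq_sum {ι : Type*} (s : Finset ι) (A : ι → Matrix (Fin N) (Fin N) ℂ) :
    nq (∑ i ∈ s, A i) ≤ s.card * ∑ i ∈ s, nq (A i) := by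
  unfold nq
  have e : ∑ i ∈ s, ∑ a, ∑ b, ‖A i a b‖ ^ 2 = ∑ a, ∑ b, ∑ i ∈ s, ‖A i a b‖ ^ 2 := by
    rw [Finset.sum_comm]
    refine Finset.sum_congr rfl fun a _ => ?_
    rw [Finset.sum_comm]
  rw [e, Finset.mul_sum]
  refine Finset.sum_le_sum fun a _ => ?_
  rw [Finset.mul_sum]
  refine Finset.sum_le_sum fun b _ => ?_
  rw [Matrix.sum_apply]
  exact nsq_sum s fun i => A i a b

theorem nq_trace (A : Matrix (Fin N) (Fin N) ℂ) : ‖A.trace‖ ^ 2 ≤ N * nq A := by
  unfold Matrix.trace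
  refine (nsq_sum Finset.univ fun i => A.diag i).trans ?_
  rw [Finset.card_univ, Fintype.card_fin]
  refine mul_le_mul_of_nonneg_left ?_ (Nat.cast_nonneg _)
  unfold nq
  refine Finset.sum_le_sum fun a _ => ?_
  exact Finset.single_le_sum (f := fun b => ‖A a b‖ ^ 2) (fun _ _ => sq_nonneg _)
    (Finset.mem_univ a)

theorem nq_le {A : Matrix (Fin N) (Fin N) ℂ} {c : ℝ} (h : ∀ a b, ‖A a b‖ ≤ c) :
    nq A ≤ N ^ 2 * c ^ 2 := by
  unfold nq
  calc ∑ a, ∑ b, ‖A a b‖ ^ 2 ≤ ∑ _a : Fin N, ∑ _b : Fin N, c ^ 2 :=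
        Finset.sum_le_sum fun a _ => Finset.sum_le_sum fun b _ =>
          pow_le_pow_left₀ (norm_nonneg _) (h a b) 2
    _ = N ^ 2 * c ^ 2 := by simp; ring

theorem trace_mul_conj (A : Matrix (Fin N) (Fin N) ℂ) : (A * Aᴴ).trace = (nq A : ℂ) := by
  unfold Matrix.trace nq
  simp only [Matrix.diag_apply, Matrix.mul_apply, Matrix.conjTranspose_apply]
  push_cast
  refine Finset.sum_congr rfl fun a _ => Finset.sum_congr rfl fun b _ => ?_
  rw [Complex.star_def, Complex.mul_conj, Complex.normSq_eq_norm_sq]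
  push_cast
  rfl

/-! ## continuity and integrability -/

theorem cont_sq : Continuous (HY.sq : V n → ℝ) := by
  unfold HY.sq
  fun_prop

theorem sq_nonneg' (x : V n) : 0 ≤ HY.sq x := Finset.sum_nonneg fun _ _ => sq_nonneg _

theorem abs_le_of_sq {x : V n} {r : ℝ} (hr : 0 ≤ r) (h : HY.sq x ≤ r ^ 2) (i : Fin n) :
    |x i| ≤ r := by
  have h1 : x i ^ 2 ≤ HY.sq x :=
    Finset.single_le_sum (f := fun j => x j ^ 2) (fun _ _ => sq_nonneg _) (Finset.mem_univ i)
  exact abs_le_of_sq_le_sq (h1.trans h) hr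

theorem isCompact_bl0 : IsCompact (bl0 n) := by
  have h1 : IsClosed (bl0 n) := isClosed_le cont_sq continuous_const
  refine Metric.isCompact_of_isClosed_isBounded h1 ?_
  refine (Metric.isBounded_closedBall (x := (0 : V n)) (r := 1)).subset fun x hx => ?_
  rw [mem_closedBall_zero_iff, pi_norm_le_iff_of_nonneg zero_le_one]
  intro i
  have h2 : HY.sq x ≤ 1 ^ 2 := by
    have : HY.sq x ≤ 1 / 4 := hx
    linarith
  exact abs_le_of_sq zero_le_one h2 i

theorem hcs {F : Type*} [Zero F] {f : V n → F} (hf : ∀ x ∉ bl0 n, f x = 0) : HasCompactSupport f :=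
  HasCompactSupport.intro isCompact_bl0 hf

theorem intg {f : V n → ℝ} (hc : Continuous f) (hf : ∀ x ∉ bl0 n, f x = 0) : Integrable f :=
  hc.integrable_of_hasCompactSupport (hcs hf)

theorem set_eq {f : V n → ℝ} (hf : ∀ x ∉ bl0 n, f x = 0) : ∫ x in bl0 n, f x = ∫ x, f x :=
  setIntegral_eq_integral_of_forall_compl_eq_zero hf

theorem cont_nq {H : MC n N} (h : SmC H) : Continuous fun x => nq (H x) := by
  unfold nq
  exact continuous_finsetSum _ fun a _ => continuous_finsetSum _ fun b _ =>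
    (h a b).continuous.norm.pow 2

theorem nq_off {H : MC n N} (h : ∀ x ∉ bl0 n, H x = 0) : ∀ x ∉ bl0 n, nq (H x) = 0 := by
  intro x hx
  rw [h x hx, nq_zero]

theorem int_nq {H : MC n N} (h : SmC H) (h0 : ∀ x ∉ bl0 n, H x = 0) :
    Integrable fun x => nq (H x) := intg (cont_nq h) (nq_off h0)

theorem n2_nonneg (H : MC n N) : 0 ≤ n2 H := integral_nonneg fun _ => nq_nonneg _

/-- A continuous nonnegative function with integral `0` vanishes. -/
theorem zero_of_int {f : V n → ℝ} (hc : Continuous f) (h0 : ∀ x, 0 ≤ f x) (hi : Integrable f)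
    (h : ∫ x, f x = 0) : ∀ x, f x = 0 := by
  have h1 := (integral_eq_zero_iff_of_nonneg h0 hi).1 h
  have h2 := (hc.ae_eq_iff_eq volume continuous_const).1 h1
  intro x
  exact congrFun h2 x

/-! ## derivatives -/

theorem sm_pdm {U : MC n N} (hU : SmC U) (i : Fin n) : SmC (pdm i U) :=
  fun a b => contDiff_pd (hU a b) i

theorem sm_sm {c : V n → ℝ} (hc : ContDiff ℝ ∞ c) {U : MC n N} (hU : SmC U) :
    SmC fun x => (c x : ℂ) • U x := by
  intro a b
  simp only [Matrix.smul_apply, smul_eq_mul]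
  exact (Complex.ofRealCLM.contDiff.comp hc).mul (hU a b)

theorem sm_add {P Q : MC n N} (hP : SmC P) (hQ : SmC Q) : SmC fun x => P x + Q x :=
  fun a b => (hP a b).add (hQ a b)

theorem sm_sub {P Q : MC n N} (hP : SmC P) (hQ : SmC Q) : SmC fun x => P x - Q x :=
  fun a b => (hP a b).sub (hQ a b)

theorem sm_sum {ι : Type*} {t : Finset ι} {R : ι → MC n N} (hR : ∀ i ∈ t, SmC (R i)) :
    SmC fun x => ∑ i ∈ t, R i x := by
  intro a b
  simp only [Matrix.sum_apply]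
  exact ContDiff.sum fun i hi => hR i hi a b

/-- The derivative of a smooth function which vanishes off a regular open set vanishes there. -/
theorem pd_off {F : Type*} [NormedAddCommGroup F] [NormedSpace ℝ F] {Ω : Set (V n)}
    (hreg : interior (closure Ω) = Ω) {f : V n → F} (hf : ContDiff ℝ ∞ f)
    (h0 : ∀ x ∉ Ω, f x = 0) (i : Fin n) : ∀ x ∉ Ω, pd i f x = 0 := by
  have hc : Continuous (pd i f) := (contDiff_pd hf i).continuous
  have h1 : ∀ x ∈ (closure Ω)ᶜ, pd i f x = 0 := by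
    intro x hx
    have h2 : f =ᶠ[nhds x] fun _ => 0 := by
      filter_upwards [isClosed_closure.isOpen_compl.mem_nhds hx] with y hy
      exact h0 y fun h => hy (subset_closure h)
    have h3 := h2.fderiv_eq (𝕜 := ℝ)
    unfold pd
    rw [h3]
    simp
  have h2 : closure (closure Ω)ᶜ ⊆ {x | pd i f x = 0} :=
    closure_minimal h1 (isClosed_eq hc continuous_const)
  intro x hx
  refine h2 ?_
  rw [closure_compl, hreg]
  exact hx

theorem pdm_off {Ω : Set (V n)} (hreg : interior (closure Ω) = Ω) {U : MC n N} (hU : SmC U)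
    (h0 : ∀ x ∉ Ω, U x = 0) (i : Fin n) : ∀ x ∉ Ω, pdm i U x = 0 := by
  intro x hx
  ext a b
  exact pd_off hreg (hU a b) (fun y hy => by rw [h0 y hy]; rfl) i x hx

end Vale.Agent.P088.PJ.H341
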