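import Vale.Agent.P088.R2.H341.V.Alg

/-!
# P088, two arbitrary pairs near the flat one: row V_GE
-/

open MeasureTheory Set
open scoped ContDiff Matrix

noncomputable section

namespace Vale.Agent.P088.PJ.H341

open Vale.Agent.P088.LR Vale.Agent.P088.LR.U Vale.Agent.P088.LR.H158
open Vale.Agent.P088.HY (VV Bs Bn Un DB ipm tfp)
open Vale.Agent.P088.PJ

variable {n N : ℕ}

theorem cl_mono {F : Type*} [NormedAddCommGroup F] [NormedSpace ℝ F] {k k' : ℕ} {a b : ℝ}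
    {f : V n → F} (h : Cl k a f) (hk : k' ≤ k) (hab : a ≤ b) : Cl k' b f :=
  fun l hl x => (h l (hl.trans hk) x).trans hab

theorem cl_sup {F : Type*} [NormedAddCommGroup F] [NormedSpace ℝ F] {k : ℕ} {a : ℝ}
    {f : V n → F} (h : Cl k a f) (x : V n) : ‖f x‖ ≤ a := by
  have := h 0 (Nat.zero_le _) x
  rwa [norm_iteratedFDeriv_zero] at this

theorem Dt_mono {k k' : ℕ} {δ : ℝ} {Ω : Set (V n)} {s : MF n} {P : MC n N} {G : Fin n → MC n N}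
    (h : Dt k δ Ω s P G) (hk : k' ≤ k) : Dt k' δ Ω s P G where
  ss := h.ss
  sy := h.sy
  one := h.one
  sP := h.sP
  hP := h.hP
  sG := h.sG
  hG := h.hG
  cs := fun i j => cl_mono (h.cs i j) hk le_rfl
  cP := fun a b => cl_mono (h.cP a b) hk le_rfl
  cG := fun i a b => cl_mono (h.cG i a b) hk le_rfl
  dq := h.dq
  pe := h.pe

theorem RP_mono {k k' : ℕ} {δ : ℝ} {Ω : Set (V n)} {s₁ s₂ : MF n} {P₁ P₂ : MC n N}
    {G₁ G₂ Y D : Fin n → MC n N} (h : RP k δ Ω s₁ s₂ P₁ P₂ G₁ G₂ Y D) (hk : k' ≤ k) :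
    RP k' δ Ω s₁ s₂ P₁ P₂ G₁ G₂ Y D where
  op := h.op
  reg := h.reg
  sub := h.sub
  d₁ := Dt_mono h.d₁ hk
  d₂ := Dt_mono h.d₂ hk
  os := h.os
  oP := h.oP
  oG := h.oG
  oD := h.oD
  sY := h.sY
  sD := h.sD
  cY := fun a i j => cl_mono (h.cY a i j) hk le_rfl
  cD := fun a i j => cl_mono (h.cD a i j) hk le_rfl
  tD := h.tD
  hY := h.hY
  gi := h.gi
  st := h.st

section data

variable {k : ℕ} {δ : ℝ} {Ω : Set (V n)} {s₁ s₂ : MF n} {P₁ P₂ : MC n N}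
  {G₁ G₂ Y D : Fin n → MC n N}

theorem ipm_cont (h1 : SmM s₁) (h2 : SmM s₂) : ContDiff ℝ ∞ fun x => ipm s₁ s₂ x := by
  unfold ipm
  exact ContDiff.sum fun i _ => ContDiff.sum fun j _ => (h1 i j).mul (h2 i j)

theorem sm_hd (h1 : SmM s₁) (h2 : SmM s₂) : SmM (hd s₁ s₂) := fun i j => (h2 i j).sub (h1 i j)

theorem sm_tfp (h1 : SmM s₁) (h2 : SmM s₂) (h0 : ∀ x, ipm s₁ s₁ x ≠ 0) :
    SmM (tfp s₁ s₂) := by
  intro i j
  unfold tfp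
  simp only [Matrix.sub_apply, Matrix.smul_apply, smul_eq_mul]
  exact (h2 i j).sub (((ipm_cont h1 h2).div (ipm_cont h1 h1) h0).mul (h1 i j))

theorem sm_tfC {H : Fin n → Fin n → MC n N} (h1 : SmM s₁) (hH : ∀ i j, SmC (H i j))
    (h0 : ∀ x, ipm s₁ s₁ x ≠ 0) (i j : Fin n) : SmC (tfC s₁ H i j) := by
  have h2 : SmC (ipC s₁ H) := by
    unfold ipC
    exact sm_sum fun i _ => sm_sum fun j _ => sm_sm (h1 i j) (hH i j)
  exact sm_sub (hH i j) (sm_sm ((h1 i j).div (ipm_cont h1 h1) h0) h2)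

theorem sm_sy (hD : ∀ a, SmC (D a)) (i j : Fin n) : SmC (sy D i j) :=
  sm_add (sm_pdm (hD j) i) (sm_pdm (hD i) j)

theorem sm_Zt (h1 : SmM s₁) (h2 : SmM s₂) (hP1 : SmC P₁) (hP2 : SmC P₂) (i j : Fin n) :
    SmC (Zt s₁ s₂ P₁ P₂ i j) := sm_sub (sm_sm (h2 i j) hP2) (sm_sm (h1 i j) hP1)

theorem sm_Vt (h1 : SmM s₁) (h2 : SmM s₂) (hP1 : SmC P₁) (hP2 : SmC P₂) (hD : ∀ a, SmC (D a))
    (i j : Fin n) : SmC (Vt s₁ s₂ P₁ P₂ D i j) :=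
  sm_add (sm_add (sm_Zt h1 h2 hP1 hP2 i j) (sm_pdm (hD j) i)) (sm_pdm (hD i) j)

theorem Vt_off (h : RP k δ Ω s₁ s₂ P₁ P₂ G₁ G₂ Y D) (i j : Fin n) :
    ∀ x ∉ Ω, Vt s₁ s₂ P₁ P₂ D i j x = 0 := by
  intro x hx
  unfold Vt Zt TP
  rw [h.os x hx, h.oP x hx, pdm_off h.reg (h.sD j) (h.oD j) i x hx,
    pdm_off h.reg (h.sD i) (h.oD i) j x hx]
  simp

theorem tfC_off {H : Fin n → Fin n → MC n N} {s : MF n} {x : V n} (h : ∀ i j, H i j x = 0)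
    (i j : Fin n) : tfC s H i j x = 0 := by
  unfold tfC ipC
  simp [h]

theorem SD_cont (hD : ∀ a, SmC (D a)) : Continuous (SD D) := by
  unfold SD
  exact continuous_finsetSum _ fun a _ => continuous_finsetSum _ fun i _ =>
    cont_nq (sm_pdm (hD a) i)

theorem nD_eq (h : RP k δ Ω s₁ s₂ P₁ P₂ G₁ G₂ Y D) : nD D = ∫ x, SD D x := by
  unfold nD SD n2
  have hi : ∀ a i, Integrable fun x => nq (pdm i (D a) x) := fun a i =>
    int_nq (sm_pdm (h.sD a) i) fun x hx => pdm_off h.reg (h.sD a) (h.oD a) i x fun hx' =>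
      hx (h.sub hx')
  rw [integral_finsetSum _ fun a _ => integrable_finsetSum _ fun i _ => hi a i]
  refine Finset.sum_congr rfl fun a _ => ?_
  rw [integral_finsetSum _ fun i _ => hi a i]

/-! ### the estimates -/

/-- The trace free part of `s₂ - s₁`, squared. -/
def hq (s₁ s₂ : MF n) (x : V n) : ℝ := ∑ i, ∑ j, tfp s₁ (hd s₁ s₂) x i j ^ 2

/-- The trace part of `s₂ - s₁`. -/
def ph (s₁ s₂ : MF n) (x : V n) : ℝ := ipm s₁ (hd s₁ s₂) x / ipm s₁ s₁ x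

theorem hq_nonneg (x : V n) : 0 ≤ hq s₁ s₂ x :=
  Finset.sum_nonneg fun _ _ => Finset.sum_nonneg fun _ _ => sq_nonneg _

theorem hd_off (h : RP k δ Ω s₁ s₂ P₁ P₂ G₁ G₂ Y D) : ∀ x ∉ bl0 n, ∀ i j, hd s₁ s₂ x i j = 0 := by
  intro x hx i j
  unfold hd
  rw [h.os x fun hx' => hx (h.sub hx'), sub_self]
  rfl

theorem near_one (h : RP k δ Ω s₁ s₂ P₁ P₂ G₁ G₂ Y D) (x : V n) (i j : Fin n) :
    |s₁ x i j - (1 : Matrix (Fin n) (Fin n) ℝ) i j| ≤ δ := by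
  have := cl_sup (h.d₁.cs i j) x
  rwa [Real.norm_eq_abs] at this

theorem P_near (h : RP k δ Ω s₁ s₂ P₁ P₂ G₁ G₂ Y D) (x : V n) (a b : Fin N) :
    ‖P₂ x a b - (1 : Matrix (Fin N) (Fin N) ℂ) a b‖ ≤ δ := cl_sup (h.d₂.cP a b) x

theorem one_entry {ι : Type*} [DecidableEq ι] (a b : ι) : ‖(1 : Matrix ι ι ℂ) a b‖ ≤ 1 := by
  by_cases h : a = b
  · subst h
    simp
  · rw [Matrix.one_apply_ne h]
    simp

theorem P_sup (hδ1 : δ ≤ 1) (h : RP k δ Ω s₁ s₂ P₁ P₂ G₁ G₂ Y D) (x : V n) :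
    nq (P₂ x) ≤ 4 * N ^ 2 := by
  have h1 : ∀ a b, ‖P₂ x a b‖ ≤ 2 := by
    intro a b
    calc ‖P₂ x a b‖ = ‖(P₂ x a b - (1 : Matrix (Fin N) (Fin N) ℂ) a b) +
          (1 : Matrix (Fin N) (Fin N) ℂ) a b‖ := by rw [sub_add_cancel]
      _ ≤ δ + 1 := (norm_add_le _ _).trans (add_le_add (P_near h x a b) (one_entry a b))
      _ ≤ 2 := by linarith
  refine (nq_le h1).trans (le_of_eq ?_)
  ring

theorem tr_ge (hN : 1 ≤ N) (hδ2 : δ ≤ 1 / 2) (h : RP k δ Ω s₁ s₂ P₁ P₂ G₁ G₂ Y D) (x : V n) :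
    1 / 2 ≤ ((P₂ x).trace).re := by
  have h1 : ∀ a, 1 / 2 ≤ (P₂ x a a).re := by
    intro a
    have h2 := P_near h x a a
    rw [Matrix.one_apply_eq] at h2
    have h3 := (Complex.abs_re_le_norm (P₂ x a a - 1)).trans h2
    rw [Complex.sub_re, Complex.one_re] at h3
    have := (abs_le.1 h3).1
    linarith
  have h2 : ((P₂ x).trace).re = ∑ a, (P₂ x a a).re := by
    unfold Matrix.trace
    rw [Complex.re_sum]
    rfl
  rw [h2]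
  have h3 : (Finset.univ : Finset (Fin N)).card • (1 / 2 : ℝ) ≤ ∑ a, (P₂ x a a).re :=
    Finset.card_nsmul_le_sum _ _ _ fun a _ => h1 a
  rw [Finset.card_univ, Fintype.card_fin, nsmul_eq_mul] at h3
  have h4 : (1 : ℝ) ≤ N := by exact_mod_cast hN
  linarith

theorem hq_le (hN : 1 ≤ N) (hδ2 : δ ≤ 1 / 2) (h : RP k δ Ω s₁ s₂ P₁ P₂ G₁ G₂ Y D)
    (h0 : ∀ x, ipm s₁ s₁ x ≠ 0) (x : V n) :
    hq s₁ s₂ x ≤ 4 * N * ∑ i, ∑ j, nq (tfC s₁ (Vt s₁ s₂ P₁ P₂ D) i j x) := by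
  unfold hq
  rw [Finset.mul_sum]
  refine Finset.sum_le_sum fun i _ => ?_
  rw [Finset.mul_sum]
  refine Finset.sum_le_sum fun j _ => ?_
  have h1 := re_tr_W (s₂ := s₂) (P₁ := P₁) (P₂ := P₂) h.sD h.tD (h0 x) i j
  have h2 := nq_trace (tfC s₁ (Vt s₁ s₂ P₁ P₂ D) i j x)
  have h3 := Complex.abs_re_le_norm (tfC s₁ (Vt s₁ s₂ P₁ P₂ D) i j x).trace
  have h4 : (tfp s₁ (hd s₁ s₂) x i j * ((P₂ x).trace).re) ^ 2 ≤
      ‖(tfC s₁ (Vt s₁ s₂ P₁ P₂ D) i j x).trace‖ ^ 2 := by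
    rw [← h1, ← sq_abs]
    exact pow_le_pow_left₀ (abs_nonneg _) h3 2
  have h5 := tr_ge hN hδ2 h x
  have h6 : tfp s₁ (hd s₁ s₂) x i j ^ 2 * (1 / 4) ≤
      (tfp s₁ (hd s₁ s₂) x i j * ((P₂ x).trace).re) ^ 2 := by
    rw [mul_pow]
    refine mul_le_mul_of_nonneg_left ?_ (sq_nonneg _)
    nlinarith
  linarith

theorem hs_le (hδ1 : δ ≤ 1) (h : RP k δ Ω s₁ s₂ P₁ P₂ G₁ G₂ Y D) (x : V n) :
    ∑ i, ∑ j, (s₂ x i j - s₁ x i j) ^ 2 ≤ 2 * hq s₁ s₂ x + 8 * n ^ 2 * ph s₁ s₂ x ^ 2 := by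
  have h1 : ∀ i j, (s₂ x i j - s₁ x i j) ^ 2 ≤
      2 * tfp s₁ (hd s₁ s₂) x i j ^ 2 + 8 * ph s₁ s₂ x ^ 2 := by
    intro i j
    have e : s₂ x i j - s₁ x i j = tfp s₁ (hd s₁ s₂) x i j + ph s₁ s₂ x * s₁ x i j := by
      unfold tfp ph
      simp only [Matrix.sub_apply, Matrix.smul_apply, smul_eq_mul]
      unfold hd
      simp only [Matrix.sub_apply]
      ring
    have h2 : s₁ x i j ^ 2 ≤ 4 := by
      have h3 := near_one h x i j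
      have h4 : |(1 : Matrix (Fin n) (Fin n) ℝ) i j| ≤ 1 := by
        by_cases hij : i = j
        · subst hij
          simp
        · rw [Matrix.one_apply_ne hij]
          simp
      have h5 : |s₁ x i j| ≤ 2 := by
        calc |s₁ x i j| = |(s₁ x i j - (1 : Matrix (Fin n) (Fin n) ℝ) i j) +
              (1 : Matrix (Fin n) (Fin n) ℝ) i j| := by rw [sub_add_cancel]
          _ ≤ δ + 1 := (abs_add_le _ _).trans (add_le_add h3 h4)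
          _ ≤ 2 := by linarith
      rw [← sq_abs]
      have := pow_le_pow_left₀ (abs_nonneg _) h5 2
      linarith
    rw [e]
    have h6 : (ph s₁ s₂ x * s₁ x i j) ^ 2 ≤ ph s₁ s₂ x ^ 2 * 4 := by
      rw [mul_pow]
      exact mul_le_mul_of_nonneg_left h2 (sq_nonneg _)
    nlinarith [sq_nonneg (tfp s₁ (hd s₁ s₂) x i j - ph s₁ s₂ x * s₁ x i j)]
  calc _ ≤ ∑ i, ∑ j, (2 * tfp s₁ (hd s₁ s₂) x i j ^ 2 + 8 * ph s₁ s₂ x ^ 2) :=
        Finset.sum_le_sum fun i _ => Finset.sum_le_sum fun j _ => h1 i j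
    _ = _ := by
        unfold hq
        simp only [Finset.sum_add_distrib, ← Finset.mul_sum, Finset.sum_const, Finset.card_univ,
          Fintype.card_fin, nsmul_eq_mul]
        ring

/-- Pointwise bound of the tensor in the Korn inequality. -/
theorem korn_pt (hn : 1 ≤ n) (hδ0 : 0 ≤ δ) (hδ1 : δ ≤ 1) (hδn : 6 * n * δ ≤ 1)
    (h : RP k δ Ω s₁ s₂ P₁ P₂ G₁ G₂ Y D) (h0 : ∀ x, ipm s₁ s₁ x ≠ 0) (x : V n) :
    ∑ i, ∑ j, nq (sy D i j x - (if i = j then (2 / n : ℂ) • ∑ l, pdm l (D l) x else 0)) ≤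
      4 * (∑ i, ∑ j, nq (tfC s₁ (Vt s₁ s₂ P₁ P₂ D) i j x)) + 16 * N ^ 2 * hq s₁ s₂ x
        + 1280 * n ^ 4 * δ ^ 2 * SD D x := by
  have h1 : ∀ i j : Fin n,
      nq (sy D i j x - (if i = j then (2 / n : ℂ) • ∑ l, pdm l (D l) x else 0)) ≤
      4 * nq (tfC s₁ (Vt s₁ s₂ P₁ P₂ D) i j x) + 16 * N ^ 2 * tfp s₁ (hd s₁ s₂) x i j ^ 2
        + 1280 * n ^ 2 * δ ^ 2 * SD D x := by
    intro i j
    set E : Matrix (Fin N) (Fin N) ℂ :=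
      sy D i j x - (if i = j then (2 / n : ℂ) • ∑ l, pdm l (D l) x else 0) - tfC s₁ (sy D) i j x
      with hE
    have h2 := korn_err (D := D) hn hδ0 hδ1 hδn (fun i j => near_one h x i j) i j
    have e : sy D i j x - (if i = j then (2 / n : ℂ) • ∑ l, pdm l (D l) x else 0) =
        (tfC s₁ (Vt s₁ s₂ P₁ P₂ D) i j x - ((tfp s₁ (hd s₁ s₂) x i j : ℝ) : ℂ) • P₂ x) + E := by
      rw [tf_V (h0 x), hE]
      abel
    rw [e]
    have h3 := nq_add (tfC s₁ (Vt s₁ s₂ P₁ P₂ D) i j x -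
      ((tfp s₁ (hd s₁ s₂) x i j : ℝ) : ℂ) • P₂ x) E
    have h4 := nq_sub (tfC s₁ (Vt s₁ s₂ P₁ P₂ D) i j x)
      (((tfp s₁ (hd s₁ s₂) x i j : ℝ) : ℂ) • P₂ x)
    rw [nq_smul (((tfp s₁ (hd s₁ s₂) x i j : ℝ) : ℂ)), Complex.norm_real, Real.norm_eq_abs, sq_abs]
      at h4
    have h5 : tfp s₁ (hd s₁ s₂) x i j ^ 2 * nq (P₂ x) ≤
        tfp s₁ (hd s₁ s₂) x i j ^ 2 * (4 * N ^ 2) :=
      mul_le_mul_of_nonneg_left (P_sup hδ1 h x) (sq_nonneg _)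
    have h6 : nq E ≤ 640 * n ^ 2 * δ ^ 2 * SD D x := h2
    linarith
  calc _ ≤ ∑ i : Fin n, ∑ j : Fin n, (4 * nq (tfC s₁ (Vt s₁ s₂ P₁ P₂ D) i j x) +
        16 * N ^ 2 * tfp s₁ (hd s₁ s₂) x i j ^ 2 + 1280 * n ^ 2 * δ ^ 2 * SD D x) :=
        Finset.sum_le_sum fun i _ => Finset.sum_le_sum fun j _ => h1 i j
    _ = _ := by
        unfold hq
        simp only [Finset.sum_add_distrib, ← Finset.mul_sum, Finset.sum_const, Finset.card_univ,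
          Fintype.card_fin, nsmul_eq_mul]
        ring

end data

end Vale.Agent.P088.PJ.H341
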