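import Vale.Agent.P088.R2.H341.V.GE

/-!
# P088, two arbitrary pairs near the flat one: row V_GE, integrated estimates
-/

open MeasureTheory Set
open scoped ContDiff Matrix

noncomputable section

namespace Vale.Agent.P088.PJ.H341

open Vale.Agent.P088.LR Vale.Agent.P088.LR.U Vale.Agent.P088.LR.H158
open Vale.Agent.P088.HY (VV Bs Bn Un DB ipm tfp)
open Vale.Agent.P088.PJ

variable {n N : ℕ}

section data

variable {k : ℕ} {δ : ℝ} {Ω : Set (V n)} {s₁ s₂ : MF n} {P₁ P₂ : MC n N}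
  {G₁ G₂ Y D : Fin n → MC n N}

/-- The tensor in the Korn inequality. -/
def Uk (D : Fin n → MC n N) (i j : Fin n) : MC n N := fun x =>
  sy D i j x - (if i = j then (2 / n : ℂ) • ∑ l, pdm l (D l) x else 0)

theorem sm_Uk (hD : ∀ a, SmC (D a)) (i j : Fin n) : SmC (Uk D i j) := by
  unfold Uk
  refine sm_sub (sm_sy hD i j) ?_
  by_cases hij : i = j
  · simp only [hij, if_true]
    have h1 : SmC fun x => ∑ l, pdm l (D l) x := sm_sum fun l _ => sm_pdm (hD l) l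
    intro a b
    simp only [Matrix.smul_apply, smul_eq_mul]
    exact contDiff_const.mul (h1 a b)
  · simp only [hij, if_false]
    intro a b
    exact contDiff_const

theorem Uk_off (h : RP k δ Ω s₁ s₂ P₁ P₂ G₁ G₂ Y D) (i j : Fin n) :
    ∀ x ∉ bl0 n, Uk D i j x = 0 := by
  intro x hx
  have hx' : x ∉ Ω := fun h' => hx (h.sub h')
  have h1 : ∀ l m, pdm l (D m) x = 0 := fun l m => pdm_off h.reg (h.sD m) (h.oD m) l x hx'
  unfold Uk sy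
  simp [h1]

theorem korn_int (hKO : RowKO) (hn : 2 ≤ n) (h : RP k δ Ω s₁ s₂ P₁ P₂ G₁ G₂ Y D) :
    2 * nD D ≤ ∫ x, ∑ i, ∑ j, nq (Uk D i j x) := by
  have hoff : ∀ c, ∀ x ∉ bl0 n, D c x = 0 := fun c x hx => h.oD c x fun h' => hx (h.sub h')
  have hpoff : ∀ i c, ∀ x ∉ bl0 n, pdm i (D c) x = 0 := fun i c x hx =>
    pdm_off h.reg (h.sD c) (h.oD c) i x fun h' => hx (h.sub h')
  have e1 : ∀ x, SD D x = ∑ a, ∑ b, ∑ i, ∑ c, ‖pd i (fun y => D c y a b) x‖ ^ 2 := by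
    intro x
    unfold SD nq
    have e : ∀ c i, ∑ a, ∑ b, ‖pdm i (D c) x a b‖ ^ 2 =
        ∑ a, ∑ b, ‖pd i (fun y => D c y a b) x‖ ^ 2 := fun c i => rfl
    simp only [e]
    rw [Finset.sum_comm]
    rw [Finset.sum_congr rfl fun i _ => Finset.sum_comm]
    rw [Finset.sum_comm]
    refine Finset.sum_congr rfl fun a _ => ?_
    rw [Finset.sum_congr rfl fun i _ => Finset.sum_comm]
    rw [Finset.sum_comm]
  have e2 : ∀ x, ∑ i, ∑ j, nq (Uk D i j x) = ∑ a, ∑ b, ∑ i, ∑ j, ‖Uk D i j x a b‖ ^ 2 := by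
    intro x
    unfold nq
    rw [Finset.sum_congr rfl fun i _ => Finset.sum_comm]
    rw [Finset.sum_comm]
    refine Finset.sum_congr rfl fun a _ => ?_
    rw [Finset.sum_congr rfl fun i _ => Finset.sum_comm]
    rw [Finset.sum_comm]
  have i1 : ∀ a b : Fin N, Integrable fun x =>
      ∑ i, ∑ c, ‖pd i (fun y => D c y a b) x‖ ^ 2 := by
    intro a b
    refine intg ?_ ?_
    · exact continuous_finsetSum _ fun i _ => continuous_finsetSum _ fun c _ =>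
        (contDiff_pd (h.sD c a b) i).continuous.norm.pow 2
    · intro x hx
      refine Finset.sum_eq_zero fun i _ => Finset.sum_eq_zero fun c _ => ?_
      have h1 : pd i (fun y => D c y a b) x = pdm i (D c) x a b := rfl
      rw [h1, hpoff i c x hx]
      simp
  have i2 : ∀ a b : Fin N, Integrable fun x => ∑ i, ∑ j, ‖Uk D i j x a b‖ ^ 2 := by
    intro a b
    refine intg ?_ ?_
    · exact continuous_finsetSum _ fun i _ => continuous_finsetSum _ fun j _ =>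
        (sm_Uk h.sD i j a b).continuous.norm.pow 2
    · intro x hx
      refine Finset.sum_eq_zero fun i _ => Finset.sum_eq_zero fun j _ => ?_
      rw [Uk_off h i j x hx]
      simp
  rw [nD_eq h]
  simp only [e1, e2]
  rw [integral_finsetSum _ fun a _ => integrable_finsetSum _ fun b _ => i1 a b,
    integral_finsetSum _ fun a _ => integrable_finsetSum _ fun b _ => i2 a b, Finset.mul_sum]
  refine Finset.sum_le_sum fun a _ => ?_
  rw [integral_finsetSum _ fun b _ => i1 a b, integral_finsetSum _ fun b _ => i2 a b,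
    Finset.mul_sum]
  refine Finset.sum_le_sum fun b _ => ?_
  have h3 := hKO n hn (fun c y => D c y a b) (fun c => h.sD c a b)
    (fun c => hcs fun x hx => by rw [hoff c x hx]; rfl)
  refine h3.trans (le_of_eq ?_)
  refine integral_congr_ae (Filter.Eventually.of_forall fun x => ?_)
  refine Finset.sum_congr rfl fun i _ => Finset.sum_congr rfl fun j _ => ?_
  unfold Uk sy
  by_cases hij : i = j
  · simp only [hij, if_true, Matrix.sub_apply, Matrix.add_apply, Matrix.smul_apply, smul_eq_mul,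
      Matrix.sum_apply]
    rfl
  · simp only [hij, if_false, Matrix.sub_apply, Matrix.add_apply, Matrix.zero_apply]
    rfl

theorem cont_hq (h1 : SmM s₁) (h2 : SmM s₂) (h0 : ∀ x, ipm s₁ s₁ x ≠ 0) :
    Continuous (hq s₁ s₂) := by
  unfold hq
  exact continuous_finsetSum _ fun i _ => continuous_finsetSum _ fun j _ =>
    (sm_tfp h1 (sm_hd h1 h2) h0 i j).continuous.pow 2

theorem tfp_off (h : RP k δ Ω s₁ s₂ P₁ P₂ G₁ G₂ Y D) :
    ∀ x ∉ bl0 n, ∀ i j, tfp s₁ (hd s₁ s₂) x i j = 0 := by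
  intro x hx i j
  have h1 := hd_off h x hx
  unfold tfp ipm
  simp [h1]

theorem hq_off (h : RP k δ Ω s₁ s₂ P₁ P₂ G₁ G₂ Y D) : ∀ x ∉ bl0 n, hq s₁ s₂ x = 0 := by
  intro x hx
  unfold hq
  simp [tfp_off h x hx]

theorem ph_off (h : RP k δ Ω s₁ s₂ P₁ P₂ G₁ G₂ Y D) : ∀ x ∉ bl0 n, ph s₁ s₂ x = 0 := by
  intro x hx
  have h1 := hd_off h x hx
  unfold ph ipm
  simp [h1]

theorem sm_ph (h1 : SmM s₁) (h2 : SmM s₂) (h0 : ∀ x, ipm s₁ s₁ x ≠ 0) :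
    ContDiff ℝ ∞ (ph s₁ s₂) := (ipm_cont h1 (sm_hd h1 h2)).div (ipm_cont h1 h1) h0

theorem int_hq (h : RP k δ Ω s₁ s₂ P₁ P₂ G₁ G₂ Y D) (h0 : ∀ x, ipm s₁ s₁ x ≠ 0) :
    Integrable (hq s₁ s₂) := intg (cont_hq h.d₁.ss h.d₂.ss h0) (hq_off h)

theorem W_off (h : RP k δ Ω s₁ s₂ P₁ P₂ G₁ G₂ Y D) (i j : Fin n) :
    ∀ x ∉ Ω, tfC s₁ (Vt s₁ s₂ P₁ P₂ D) i j x = 0 := fun x hx =>
  tfC_off (fun i j => Vt_off h i j x hx) i j

theorem sm_W (h : RP k δ Ω s₁ s₂ P₁ P₂ G₁ G₂ Y D) (h0 : ∀ x, ipm s₁ s₁ x ≠ 0) (i j : Fin n) :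
    SmC (tfC s₁ (Vt s₁ s₂ P₁ P₂ D) i j) :=
  sm_tfC h.d₁.ss (sm_Vt h.d₁.ss h.d₂.ss h.d₁.sP h.d₂.sP h.sD) h0 i j

theorem int_W (h : RP k δ Ω s₁ s₂ P₁ P₂ G₁ G₂ Y D) (h0 : ∀ x, ipm s₁ s₁ x ≠ 0) (i j : Fin n) :
    Integrable fun x => nq (tfC s₁ (Vt s₁ s₂ P₁ P₂ D) i j x) :=
  int_nq (sm_W h h0 i j) fun x hx => W_off h i j x fun h' => hx (h.sub h')

theorem X_eq (h : RP k δ Ω s₁ s₂ P₁ P₂ G₁ G₂ Y D) (h0 : ∀ x, ipm s₁ s₁ x ≠ 0) :
    ∑ i, ∑ j, n2 (tfC s₁ (Vt s₁ s₂ P₁ P₂ D) i j) =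
      ∫ x, ∑ i, ∑ j, nq (tfC s₁ (Vt s₁ s₂ P₁ P₂ D) i j x) := by
  rw [integral_finsetSum _ fun i _ => integrable_finsetSum _ fun j _ => int_W h h0 i j]
  refine Finset.sum_congr rfl fun i _ => ?_
  rw [integral_finsetSum _ fun j _ => int_W h h0 i j]
  rfl

theorem int_WW (h : RP k δ Ω s₁ s₂ P₁ P₂ G₁ G₂ Y D) (h0 : ∀ x, ipm s₁ s₁ x ≠ 0) :
    Integrable fun x => ∑ i, ∑ j, nq (tfC s₁ (Vt s₁ s₂ P₁ P₂ D) i j x) :=
  integrable_finsetSum _ fun i _ => integrable_finsetSum _ fun j _ => int_W h h0 i j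

theorem int_SD (h : RP k δ Ω s₁ s₂ P₁ P₂ G₁ G₂ Y D) : Integrable (SD D) := by
  refine intg (SD_cont h.sD) fun x hx => ?_
  unfold SD
  refine Finset.sum_eq_zero fun a _ => Finset.sum_eq_zero fun i _ => ?_
  rw [pdm_off h.reg (h.sD a) (h.oD a) i x fun h' => hx (h.sub h'), nq_zero]

/-- (a) -/
theorem est_a (hN : 1 ≤ N) (hδ2 : δ ≤ 1 / 2) (h : RP k δ Ω s₁ s₂ P₁ P₂ G₁ G₂ Y D)
    (h0 : ∀ x, ipm s₁ s₁ x ≠ 0) :
    ∫ x, hq s₁ s₂ x ≤ 4 * N * ∑ i, ∑ j, n2 (tfC s₁ (Vt s₁ s₂ P₁ P₂ D) i j) := by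
  rw [X_eq h h0, ← integral_const_mul]
  exact integral_mono (int_hq h h0) ((int_WW h h0).const_mul _) (hq_le hN hδ2 h h0)

/-- (c) -/
theorem est_c (hδ1 : δ ≤ 1) (h : RP k δ Ω s₁ s₂ P₁ P₂ G₁ G₂ Y D)
    (h0 : ∀ x, ipm s₁ s₁ x ≠ 0) :
    hs s₁ s₂ ≤ 2 * (∫ x, hq s₁ s₂ x) + 8 * n ^ 2 * ∫ x, ph s₁ s₂ x ^ 2 := by
  have i1 : Integrable fun x => ph s₁ s₂ x ^ 2 := by
    refine intg ((sm_ph h.d₁.ss h.d₂.ss h0).continuous.pow 2) fun x hx => ?_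
    rw [ph_off h x hx]
    simp
  have i2 : Integrable fun x => ∑ i, ∑ j, (s₂ x i j - s₁ x i j) ^ 2 := by
    refine intg (continuous_finsetSum _ fun i _ => continuous_finsetSum _ fun j _ =>
      (((h.d₂.ss i j).continuous.sub (h.d₁.ss i j).continuous).pow 2)) fun x hx => ?_
    rw [h.os x fun h' => hx (h.sub h')]
    simp
  rw [← integral_const_mul, ← integral_const_mul, ← integral_add ((int_hq h h0).const_mul _)
    (i1.const_mul _)]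
  exact integral_mono i2 (((int_hq h h0).const_mul _).add (i1.const_mul _)) (hs_le hδ1 h)

/-- (d) -/
theorem est_d (hKO : RowKO) (hn : 2 ≤ n) (hδ0 : 0 ≤ δ) (hδ1 : δ ≤ 1) (hδn : 6 * n * δ ≤ 1)
    (hδk : 1280 * n ^ 4 * δ ^ 2 ≤ 1) (h : RP k δ Ω s₁ s₂ P₁ P₂ G₁ G₂ Y D)
    (h0 : ∀ x, ipm s₁ s₁ x ≠ 0) :
    nD D ≤ 4 * (∑ i, ∑ j, n2 (tfC s₁ (Vt s₁ s₂ P₁ P₂ D) i j)) +
      16 * N ^ 2 * ∫ x, hq s₁ s₂ x := by
  have h1 := korn_int hKO hn h
  have h2 : ∫ x, ∑ i, ∑ j, nq (Uk D i j x) ≤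
      4 * (∑ i, ∑ j, n2 (tfC s₁ (Vt s₁ s₂ P₁ P₂ D) i j)) +
      16 * N ^ 2 * (∫ x, hq s₁ s₂ x) + 1280 * n ^ 4 * δ ^ 2 * nD D := by
    have iA : Integrable fun x => 4 * (∑ i, ∑ j, nq (tfC s₁ (Vt s₁ s₂ P₁ P₂ D) i j x)) +
        16 * N ^ 2 * hq s₁ s₂ x := ((int_WW h h0).const_mul _).add ((int_hq h h0).const_mul _)
    have iB : Integrable fun x => 4 * (∑ i, ∑ j, nq (tfC s₁ (Vt s₁ s₂ P₁ P₂ D) i j x)) +
        16 * N ^ 2 * hq s₁ s₂ x + 1280 * n ^ 4 * δ ^ 2 * SD D x :=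
      iA.add ((int_SD h).const_mul _)
    rw [X_eq h h0, nD_eq h, ← integral_const_mul, ← integral_const_mul, ← integral_const_mul,
      ← integral_add ((int_WW h h0).const_mul _) ((int_hq h h0).const_mul _),
      ← integral_add iA ((int_SD h).const_mul _)]
    refine integral_mono ?_ iB ?_
    · exact integrable_finsetSum _ fun i _ => integrable_finsetSum _ fun j _ =>
        int_nq (sm_Uk h.sD i j) (Uk_off h i j)
    · intro x
      exact korn_pt (by omega) hδ0 hδ1 hδn h h0 x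
  have h3 : 0 ≤ nD D := by
    rw [nD_eq h]
    exact integral_nonneg fun x => SD_nonneg D x
  have h4 : 1280 * n ^ 4 * δ ^ 2 * nD D ≤ 1 * nD D := mul_le_mul_of_nonneg_right hδk h3
  linarith

end data

end Vale.Agent.P088.PJ.H341
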