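import Vale.Agent.P088.R2.H341.V.GE2

/-!
# P088, two arbitrary pairs near the flat one: row V_GE
-/

open MeasureTheory Set
open scoped ContDiff Matrix

noncomputable section

namespace Vale.Agent.P088.PJ.H341

open Vale.Agent.P088.LR Vale.Agent.P088.LR.U Vale.Agent.P088.LR.H158
open Vale.Agent.P088.HY (VV Bs Bn Un DB ipm tfp)
open Vale.Agent.P088.PJ

variable {n N : ℕ}

section data

variable {k : ℕ} {δ : ℝ} {Ω : Set (V n)} {s₁ s₂ : MF n} {P₁ P₂ : MC n N}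
  {G₁ G₂ Y D : Fin n → MC n N}

/-- (b) -/
theorem est_b {C2 C3 : ℝ} (hC2 : 0 < C2) (hC3 : 0 < C3) (hδ0 : 0 ≤ δ)
    (hδs : δ * (n ^ 2 + C3) ≤ 1 / 4) (h : RP k δ Ω s₁ s₂ P₁ P₂ G₁ G₂ Y D)
    (h0 : ∀ x, ipm s₁ s₁ x ≠ 0) (v : Fin n → V n → ℝ) (hv : ∀ i, ContDiff ℝ ∞ (v i))
    (hDV : (∫ x, ∑ i, ∑ j, (s₂ x i j - s₁ x i j) * pd j (v i) x) ^ 2 ≤
      C2 * δ ^ 2 * (hs s₁ s₂ + nD D) * ∫ x in bl0 n, ∑ i, (v i x ^ 2 + ∑ j, pd j (v i) x ^ 2))
    (hdiv : ∀ x ∈ bl0 n, ∑ i, pd i (v i) x = ph s₁ s₂ x)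
    (hb : ∫ x in bl0 n, ∑ i, (v i x ^ 2 + ∑ j, pd j (v i) x ^ 2) ≤
      C3 * ∫ x, ph s₁ s₂ x ^ 2) :
    ∫ x, ph s₁ s₂ x ^ 2 ≤ 4 * (C2 * C3 * δ ^ 2 * (hs s₁ s₂ + nD D)) +
      4 * C3 * ∫ x, hq s₁ s₂ x := by
  set Qv : V n → ℝ := fun x => ∑ i, (v i x ^ 2 + ∑ j, pd j (v i) x ^ 2) with hQv
  set B : V n → ℝ := fun x => ∑ i, ∑ j, (s₂ x i j - s₁ x i j) * pd j (v i) x with hB
  set F : ℝ := ∫ x, ph s₁ s₂ x ^ 2 with hF
  set A : ℝ := ∫ x, hq s₁ s₂ x with hA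
  have hcp : ∀ i j, Continuous (pd j (v i)) := fun i j => (contDiff_pd (hv i) j).continuous
  have cQ : Continuous Qv := continuous_finsetSum _ fun i _ => ((hv i).continuous.pow 2).add
    (continuous_finsetSum _ fun j _ => (hcp i j).pow 2)
  have cB : Continuous B := continuous_finsetSum _ fun i _ => continuous_finsetSum _ fun j _ =>
    (((h.d₂.ss i j).continuous.sub (h.d₁.ss i j).continuous).mul (hcp i j))
  have cP : Continuous fun x => ph s₁ s₂ x ^ 2 :=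
    (sm_ph h.d₁.ss h.d₂.ss h0).continuous.pow 2
  have cH := cont_hq h.d₁.ss h.d₂.ss h0
  have iO : ∀ {f : V n → ℝ}, Continuous f → IntegrableOn f (bl0 n) := fun hf =>
    hf.continuousOn.integrableOn_compact isCompact_bl0
  have hpt : ∀ x ∈ bl0 n, ph s₁ s₂ x ^ 2 ≤ B x + 2 * C3 * hq s₁ s₂ x + 1 / (8 * C3) * Qv x +
      δ / 2 * (n ^ 2 * ph s₁ s₂ x ^ 2 + Qv x) := by
    intro x hx
    have hdx := hdiv x hx
    set φ := ph s₁ s₂ x with hφ
    have e1 : B x = (∑ i, ∑ j, tfp s₁ (hd s₁ s₂) x i j * pd j (v i) x) +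
        (∑ i, ∑ j, φ * (s₁ x i j - (1 : Matrix (Fin n) (Fin n) ℝ) i j) * pd j (v i) x) +
        φ ^ 2 := by
      have e2 : φ ^ 2 = ∑ i, ∑ j, φ * (1 : Matrix (Fin n) (Fin n) ℝ) i j * pd j (v i) x := by
        have e3 : ∀ i, ∑ j, φ * (1 : Matrix (Fin n) (Fin n) ℝ) i j * pd j (v i) x =
            φ * pd i (v i) x := by
          intro i
          rw [Finset.sum_eq_single i]
          · rw [Matrix.one_apply_eq, mul_one]
          · intro j _ hj
            rw [Matrix.one_apply_ne (Ne.symm hj)]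
            ring
          · intro h
            exact absurd (Finset.mem_univ i) h
        simp only [e3]
        rw [← Finset.mul_sum, hdx]
        ring
      rw [e2, hB]
      simp only [← Finset.sum_add_distrib]
      refine Finset.sum_congr rfl fun i _ => Finset.sum_congr rfl fun j _ => ?_
      have e4 : s₂ x i j - s₁ x i j = tfp s₁ (hd s₁ s₂) x i j + φ * s₁ x i j := by
        rw [hφ]
        unfold tfp ph
        simp only [Matrix.sub_apply, Matrix.smul_apply, smul_eq_mul]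
        unfold hd
        simp only [Matrix.sub_apply]
        ring
      rw [e4]
      ring
    have h1 : -(∑ i, ∑ j, tfp s₁ (hd s₁ s₂) x i j * pd j (v i) x) ≤
        2 * C3 * hq s₁ s₂ x + 1 / (8 * C3) * ∑ i, ∑ j, pd j (v i) x ^ 2 := by
      unfold hq
      simp only [Finset.mul_sum, ← Finset.sum_neg_distrib, ← Finset.sum_add_distrib]
      refine Finset.sum_le_sum fun i _ => Finset.sum_le_sum fun j _ => ?_
      set a := tfp s₁ (hd s₁ s₂) x i j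
      set p := pd j (v i) x
      have e : 2 * C3 * a ^ 2 + 1 / (8 * C3) * p ^ 2 + a * p = 1 / (8 * C3) * (4 * C3 * a + p) ^ 2 := by
        field_simp
        ring
      have : 0 ≤ 1 / (8 * C3) * (4 * C3 * a + p) ^ 2 := by positivity
      linarith
    have h2 : -(∑ i, ∑ j, φ * (s₁ x i j - (1 : Matrix (Fin n) (Fin n) ℝ) i j) * pd j (v i) x) ≤
        δ / 2 * (n ^ 2 * φ ^ 2 + ∑ i, ∑ j, pd j (v i) x ^ 2) := by
      have e : δ / 2 * (n ^ 2 * φ ^ 2 + ∑ i, ∑ j, pd j (v i) x ^ 2) =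
          ∑ i : Fin n, ∑ j : Fin n, δ / 2 * (φ ^ 2 + pd j (v i) x ^ 2) := by
        simp only [mul_add, Finset.sum_add_distrib, ← Finset.mul_sum, Finset.sum_const,
          Finset.card_univ, Fintype.card_fin, nsmul_eq_mul]
        ring
      rw [e]
      simp only [← Finset.sum_neg_distrib]
      refine Finset.sum_le_sum fun i _ => Finset.sum_le_sum fun j _ => ?_
      set p := pd j (v i) x
      set q := s₁ x i j - (1 : Matrix (Fin n) (Fin n) ℝ) i j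
      have hq1 : |q| ≤ δ := near_one h x i j
      have h3 : -(φ * q * p) ≤ |q| * (|φ| * |p|) := by
        calc -(φ * q * p) ≤ |φ * q * p| := neg_le_abs _
          _ = _ := by rw [abs_mul, abs_mul]; ring
      have h4 : |φ| * |p| ≤ (φ ^ 2 + p ^ 2) / 2 := by
        have := sq_nonneg (|φ| - |p|)
        rw [← sq_abs φ, ← sq_abs p]
        linarith
      calc -(φ * q * p) ≤ |q| * (|φ| * |p|) := h3
        _ ≤ δ * ((φ ^ 2 + p ^ 2) / 2) := mul_le_mul hq1 h4 (by positivity) hδ0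
        _ = _ := by ring
    have h3 : ∑ i, ∑ j, pd j (v i) x ^ 2 ≤ Qv x := by
      rw [hQv]
      refine Finset.sum_le_sum fun i _ => ?_
      have := sq_nonneg (v i x)
      linarith
    have h4 : 1 / (8 * C3) * ∑ i, ∑ j, pd j (v i) x ^ 2 ≤ 1 / (8 * C3) * Qv x :=
      mul_le_mul_of_nonneg_left h3 (by positivity)
    have h5 : δ / 2 * (n ^ 2 * φ ^ 2 + ∑ i, ∑ j, pd j (v i) x ^ 2) ≤
        δ / 2 * (n ^ 2 * φ ^ 2 + Qv x) :=
      mul_le_mul_of_nonneg_left (by linarith) (by positivity)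
    linarith
  have eF : ∫ x in bl0 n, ph s₁ s₂ x ^ 2 = F := set_eq fun x hx => by
    rw [ph_off h x hx]
    simp
  have eA : ∫ x in bl0 n, hq s₁ s₂ x = A := set_eq (hq_off h)
  have eB : ∫ x in bl0 n, B x = ∫ x, B x := set_eq fun x hx => by
    have := hd_off h x hx
    rw [hB]
    refine Finset.sum_eq_zero fun i _ => Finset.sum_eq_zero fun j _ => ?_
    have h1 : s₂ x i j - s₁ x i j = 0 := this i j
    rw [h1, zero_mul]
  set g : ℝ := ∫ x in bl0 n, Qv x with hg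
  set I : ℝ := ∫ x, B x with hI
  have hint : F ≤ I + 2 * C3 * A + 1 / (8 * C3) * g + δ / 2 * (n ^ 2 * F + g) := by
    have h1 : ∫ x in bl0 n, ph s₁ s₂ x ^ 2 ≤ ∫ x in bl0 n, (B x + 2 * C3 * hq s₁ s₂ x +
        1 / (8 * C3) * Qv x + δ / 2 * (n ^ 2 * ph s₁ s₂ x ^ 2 + Qv x)) := by
      refine setIntegral_mono_on (iO cP) (iO ?_) isCompact_bl0.isClosed.measurableSet hpt
      exact ((cB.add (continuous_const.mul cH)).add (continuous_const.mul cQ)).add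
        (continuous_const.mul ((continuous_const.mul cP).add cQ))
    have e1 : ∫ x in bl0 n, (B x + 2 * C3 * hq s₁ s₂ x +
        1 / (8 * C3) * Qv x + δ / 2 * (n ^ 2 * ph s₁ s₂ x ^ 2 + Qv x)) =
        I + 2 * C3 * A + 1 / (8 * C3) * g + δ / 2 * (n ^ 2 * F + g) := by
      have i1 : IntegrableOn (fun x => 2 * C3 * hq s₁ s₂ x) (bl0 n) :=
        iO (continuous_const.mul cH)
      have i2 : IntegrableOn (fun x => 1 / (8 * C3) * Qv x) (bl0 n) :=
        iO (continuous_const.mul cQ)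
      have i3 : IntegrableOn (fun x => n ^ 2 * ph s₁ s₂ x ^ 2) (bl0 n) :=
        iO (continuous_const.mul cP)
      have i4 : IntegrableOn (fun x => δ / 2 * (n ^ 2 * ph s₁ s₂ x ^ 2 + Qv x)) (bl0 n) :=
        iO (continuous_const.mul ((continuous_const.mul cP).add cQ))
      have i5 : IntegrableOn (fun x => B x + 2 * C3 * hq s₁ s₂ x) (bl0 n) := (iO cB).add i1
      have i6 : IntegrableOn (fun x => B x + 2 * C3 * hq s₁ s₂ x + 1 / (8 * C3) * Qv x) (bl0 n) :=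
        i5.add i2
      rw [integral_add i6 i4, integral_add i5 i2, integral_add (iO cB) i1, integral_const_mul,
        integral_const_mul, integral_const_mul, integral_add i3 (iO cQ), integral_const_mul, eF, eA,
        eB]
    rw [e1, eF] at h1
    exact h1
  have hg0 : 0 ≤ g := integral_nonneg fun x => Finset.sum_nonneg fun i _ =>
    add_nonneg (sq_nonneg _) (Finset.sum_nonneg fun j _ => sq_nonneg _)
  have hF0 : 0 ≤ F := integral_nonneg fun x => sq_nonneg _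
  have hA0 : 0 ≤ A := integral_nonneg fun x => hq_nonneg x
  have hgF : g ≤ C3 * F := hb
  have hH0 : 0 ≤ hs s₁ s₂ + nD D := by
    refine add_nonneg ?_ ?_
    · exact integral_nonneg fun x => Finset.sum_nonneg fun i _ => Finset.sum_nonneg fun j _ =>
        sq_nonneg _
    · rw [nD_eq h]
      exact integral_nonneg fun x => SD_nonneg D x
  set M : ℝ := C2 * C3 * δ ^ 2 * (hs s₁ s₂ + nD D) with hM
  have hM0 : 0 ≤ M := by positivity
  have hI2 : I ^ 2 ≤ M * F := by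
    calc I ^ 2 ≤ C2 * δ ^ 2 * (hs s₁ s₂ + nD D) * g := hDV
      _ ≤ C2 * δ ^ 2 * (hs s₁ s₂ + nD D) * (C3 * F) :=
        mul_le_mul_of_nonneg_left hgF (by positivity)
      _ = M * F := by rw [hM]; ring
  have hI1 : I ≤ F / 8 + 2 * M := by
    refine abs_le_of_sq_le_sq' (a := I) (b := F / 8 + 2 * M) ?_ (by positivity) |>.2
    nlinarith [sq_nonneg (F / 8 - 2 * M)]
  have h6 : 1 / (8 * C3) * g ≤ F / 8 := by
    rw [div_mul_eq_mul_div, one_mul, div_le_iff₀ (by positivity)]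
    linarith
  have h7 : δ / 2 * (n ^ 2 * F + g) ≤ F / 8 := by
    calc δ / 2 * (n ^ 2 * F + g) ≤ δ / 2 * (n ^ 2 * F + C3 * F) :=
          mul_le_mul_of_nonneg_left (by linarith) (by positivity)
      _ = (δ * (n ^ 2 + C3)) * (F / 2) := by ring
      _ ≤ 1 / 4 * (F / 2) := mul_le_mul_of_nonneg_right hδs (by positivity)
      _ = F / 8 := by ring
  have h8 : 0 ≤ C3 * A := by positivity
  nlinarith

end data

/-- The final absorption. -/
theorem fin_arith {c1 c2 c3 n N d X A F H S m : ℝ} (hn : 0 ≤ n) (hN : 0 ≤ N) (h1 : 0 < c1)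
    (h2 : 0 < c2) (h3 : 0 < c3) (hd1 : d ^ 2 ≤ 1) (hdm : 64 * n ^ 2 * c2 * c3 * d ^ 2 ≤ 1)
    (hH0 : 0 ≤ H) (hS0 : 0 ≤ S)
    (ea : A ≤ 4 * N * X) (eb : F ≤ 4 * (c2 * c3 * d ^ 2 * (H + S)) + 4 * c3 * A)
    (ec : H ≤ 2 * A + 8 * n ^ 2 * F) (ed : S ≤ 4 * X + 16 * N ^ 2 * A)
    (em : m ≤ c1 * d ^ 2 * (H + S)) :
    H + S + m ≤ (1 + c1) * (((4 + 64 * n ^ 2 * c3) * (4 * N) + (4 + 64 * N ^ 3)) +
      (4 + 64 * N ^ 3)) * X := by
  have hSX : S ≤ (4 + 64 * N ^ 3) * X := by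
    have h1 : 16 * N ^ 2 * A ≤ 16 * N ^ 2 * (4 * N * X) :=
      mul_le_mul_of_nonneg_left ea (by positivity)
    calc S ≤ 4 * X + 16 * N ^ 2 * A := ed
      _ ≤ 4 * X + 16 * N ^ 2 * (4 * N * X) := by linarith
      _ = (4 + 64 * N ^ 3) * X := by ring
  have hHX : H ≤ ((4 + 64 * n ^ 2 * c3) * (4 * N) + (4 + 64 * N ^ 3)) * X := by
    have h1 : 8 * n ^ 2 * F ≤ 8 * n ^ 2 * (4 * (c2 * c3 * d ^ 2 * (H + S)) + 4 * c3 * A) :=
      mul_le_mul_of_nonneg_left eb (by positivity)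
    have h2 : 64 * n ^ 2 * c2 * c3 * d ^ 2 * (H + S) ≤ 1 * (H + S) :=
      mul_le_mul_of_nonneg_right hdm (by positivity)
    have e : 8 * n ^ 2 * (4 * (c2 * c3 * d ^ 2 * (H + S)) + 4 * c3 * A) =
        (64 * n ^ 2 * c2 * c3 * d ^ 2 * (H + S)) / 2 + 32 * n ^ 2 * c3 * A := by ring
    rw [e] at h1
    have h3 : H ≤ (4 + 64 * n ^ 2 * c3) * A + S := by
      have e2 : (4 + 64 * n ^ 2 * c3) * A = 2 * (2 * A + 32 * n ^ 2 * c3 * A) := by ring
      rw [e2]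
      linarith
    have h4 : (4 + 64 * n ^ 2 * c3) * A ≤ (4 + 64 * n ^ 2 * c3) * (4 * N * X) :=
      mul_le_mul_of_nonneg_left ea (by positivity)
    calc H ≤ (4 + 64 * n ^ 2 * c3) * A + S := h3
      _ ≤ (4 + 64 * n ^ 2 * c3) * (4 * N * X) + (4 + 64 * N ^ 3) * X := by linarith
      _ = _ := by ring
  have hm : m ≤ c1 * (H + S) := by
    have h4 : c1 * d ^ 2 * (H + S) ≤ c1 * 1 * (H + S) :=
      mul_le_mul_of_nonneg_right (mul_le_mul_of_nonneg_left hd1 h1.le) (by positivity)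
    linarith
  calc H + S + m ≤ (1 + c1) * (H + S) := by linarith
    _ ≤ (1 + c1) * ((((4 + 64 * n ^ 2 * c3) * (4 * N) + (4 + 64 * N ^ 3)) +
      (4 + 64 * N ^ 3)) * X) := mul_le_mul_of_nonneg_left (by linarith) (by linarith)
    _ = _ := by ring

/-- **Row V_GE**: everything is controlled by the trace free part of `V`. -/
theorem rowGE : RowME → RowDV → RowNE → RowKO → RowGE := by
  intro hME hDV hNE hKO n N hn hN
  obtain ⟨k1, C1, d1, hC1, hd1, ME⟩ := hME n N (by omega)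
  obtain ⟨k2, C2, d2, hC2, hd2, DV⟩ := hDV n N (by omega) hN
  obtain ⟨C3, hC3, NE⟩ := hNE n hn
  have hn0 : (0 : ℝ) < n := by
    have : 0 < n := by omega
    exact_mod_cast this
  have hn1 : (1 : ℝ) ≤ n := by
    have : 1 ≤ n := by omega
    exact_mod_cast this
  have hN1 : (1 : ℝ) ≤ N := by exact_mod_cast hN
  -- the constants
  set c : ℝ := 1280 * n ^ 4 + 64 * n ^ 2 * C2 * C3 + 4 * (n ^ 2 + C3) + 6 * n + 2 with hc
  have hc0 : 0 < c := by positivity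
  set δ : ℝ := min (min d1 d2) (1 / c) with hδ
  have hδ0 : 0 < δ := lt_min (lt_min hd1 hd2) (by positivity)
  have hδ1 : δ ≤ d1 := (min_le_left _ _).trans (min_le_left _ _)
  have hδ2 : δ ≤ d2 := (min_le_left _ _).trans (min_le_right _ _)
  have hδc : c * δ ≤ 1 := by
    have : δ ≤ 1 / c := min_le_right _ _
    rw [le_div_iff₀ hc0] at this
    linarith
  have p1 : 0 ≤ 1280 * (n : ℝ) ^ 4 * δ := by positivity
  have p2 : 0 ≤ 64 * (n : ℝ) ^ 2 * C2 * C3 * δ := by positivity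
  have p3 : 0 ≤ 4 * ((n : ℝ) ^ 2 + C3) * δ := by positivity
  have p4 : 0 ≤ 6 * (n : ℝ) * δ := by positivity
  have p5 : 1280 * (n : ℝ) ^ 4 * δ + 64 * (n : ℝ) ^ 2 * C2 * C3 * δ + 4 * ((n : ℝ) ^ 2 + C3) * δ +
      6 * (n : ℝ) * δ + 2 * δ ≤ 1 := by
    calc _ = c * δ := by rw [hc]; ring
      _ ≤ 1 := hδc
  have hδh : δ ≤ 1 / 2 := by linarith
  have hδ3 : δ ≤ 1 := by linarith
  have hδn : 6 * n * δ ≤ 1 := by linarith
  have hδk : 1280 * n ^ 4 * δ ^ 2 ≤ 1 := by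
    calc 1280 * n ^ 4 * δ ^ 2 = 1280 * n ^ 4 * δ * δ := by ring
      _ ≤ 1 * 1 := mul_le_mul (by linarith) hδ3 hδ0.le zero_le_one
      _ = 1 := one_mul _
  have hδs : δ * (n ^ 2 + C3) ≤ 1 / 4 := by linarith
  have hδm : 64 * n ^ 2 * C2 * C3 * δ ^ 2 ≤ 1 := by
    calc 64 * n ^ 2 * C2 * C3 * δ ^ 2 = 64 * n ^ 2 * C2 * C3 * δ * δ := by ring
      _ ≤ 1 * 1 := mul_le_mul (by linarith) hδ3 hδ0.le zero_le_one
      _ = 1 := one_mul _
  refine ⟨max k1 k2, (1 + C1) * (((4 + 64 * n ^ 2 * C3) * (4 * N) + (4 + 64 * N ^ 3)) +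
      (4 + 64 * N ^ 3)), δ, by positivity, hδ0, ?_⟩
  intro Ω s₁ s₂ P₁ P₂ G₁ G₂ Y D h
  have h0 : ∀ x, ipm s₁ s₁ x ≠ 0 := by
    intro x
    have := ipm_ge hδ0.le hδ3 hδn (fun i j => near_one h x i j)
    have h2 : 0 < ipm s₁ s₁ x := by linarith
    exact h2.ne'
  obtain ⟨v, hv, hdiv, hb⟩ := NE (ph s₁ s₂) (sm_ph h.d₁.ss h.d₂.ss h0) (ph_off h)
  have hME1 := ME δ hδ0.le hδ1 Ω s₁ s₂ P₁ P₂ G₁ G₂ Y D (RP_mono h (le_max_left _ _))
  have hDV1 := DV δ hδ0.le hδ2 Ω s₁ s₂ P₁ P₂ G₁ G₂ Y D (RP_mono h (le_max_right _ _)) v hv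
  have eb := est_b hC2 hC3 hδ0.le hδs h h0 v hv hDV1 hdiv hb
  have ea := est_a hN hδh h h0
  have ec := est_c hδ3 h h0
  have ed := est_d hKO (by omega) hδ0.le hδ3 hδn hδk h h0
  have hH0 : 0 ≤ hs s₁ s₂ := integral_nonneg fun x => Finset.sum_nonneg fun i _ =>
    Finset.sum_nonneg fun j _ => sq_nonneg _
  have hS0 : 0 ≤ nD D := by
    rw [nD_eq h]
    exact integral_nonneg fun x => SD_nonneg D x
  have hm0 : 0 ≤ ∑ i, n2 (pdm i (fun x => P₂ x - P₁ x)) := Finset.sum_nonneg fun i _ =>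
    n2_nonneg _
  have em : n2 (fun x => P₂ x - P₁ x) ≤ C1 * δ ^ 2 * (hs s₁ s₂ + nD D) := by linarith
  exact fin_arith hn0.le (by linarith) hC1 hC2 hC3 (by nlinarith) hδm hH0 hS0 ea eb ec ed em

end Vale.Agent.P088.PJ.H341
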