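import Vale.Agent.P088.R2.H341.V.GE2
import Vale.Agent.P088.H91.UInv

/-!
# P088, two arbitrary pairs near the flat one: calculus of `Cl` for row V_JR
-/

open MeasureTheory Set
open scoped ContDiff Matrix

noncomputable section

namespace Vale.Agent.P088.PJ.H341

open Vale.Agent.P088.LR Vale.Agent.P088.LR.U Vale.Agent.P088.LR.H158
open Vale.Agent.P088.HY (VV Bs Bn Un DB ipm tfp)
open Vale.Agent.P088.PJ
open Vale.Agent.P088.LR.U.H91 (cl_nn cl_clm cl_fsum cl_add2 cl_mul2 cl_invR)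

variable {n N k : ℕ}

/-! ## Elementary operations -/

theorem cl_cst {F : Type*} [NormedAddCommGroup F] [NormedSpace ℝ F] {c : F} {b : ℝ}
    (h : ‖c‖ ≤ b) : Cl k b (fun _ : V n => c) := by
  intro l _ x
  rcases Nat.eq_zero_or_pos l with rfl | hl
  · rw [norm_iteratedFDeriv_zero]
    exact h
  · rw [iteratedFDeriv_const_of_ne hl.ne']
    simpa using (norm_nonneg c).trans h

theorem cl_neg {F : Type*} [NormedAddCommGroup F] [NormedSpace ℝ F] {a : ℝ} {f : V n → F}
    (h1 : Cl k a f) : Cl k a (fun x => -f x) := by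
  intro l hl x
  have h : iteratedFDeriv ℝ l (fun x => -f x) x = -iteratedFDeriv ℝ l f x :=
    iteratedFDeriv_neg_apply
  rw [h, norm_neg]
  exact h1 l hl x

theorem cl_sub2 {F : Type*} [NormedAddCommGroup F] [NormedSpace ℝ F] {a b : ℝ} {f g : V n → F}
    (hf : ContDiff ℝ ∞ f) (hg : ContDiff ℝ ∞ g) (h1 : Cl k a f) (h2 : Cl k b g) :
    Cl k (a + b) (fun x => f x - g x) := by
  have := cl_add2 hf hg.neg h1 (cl_neg h2)
  simpa only [sub_eq_add_neg] using this

theorem cl_L {E F : Type*} [NormedAddCommGroup E] [NormedSpace ℝ E] [NormedAddCommGroup F]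
    [NormedSpace ℝ F] (L : E →L[ℝ] F) (hL : ‖L‖ ≤ 1) {a : ℝ} {f : V n → E}
    (hf : ContDiff ℝ ∞ f) (h : Cl k a f) : Cl k a (fun x => L (f x)) := by
  have h1 := cl_clm L hf h
  have h2 := cl_nn h
  refine cl_mono h1 le_rfl ?_
  calc ‖L‖ * a ≤ 1 * a := mul_le_mul_of_nonneg_right hL h2
    _ = a := one_mul a

theorem sm_cx {f : V n → ℝ} (hf : ContDiff ℝ ∞ f) : ContDiff ℝ ∞ fun x => (f x : ℂ) :=
  Complex.ofRealCLM.contDiff.comp hf

theorem cl_cx {a : ℝ} {f : V n → ℝ} (hf : ContDiff ℝ ∞ f) (h : Cl k a f) :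
    Cl k a (fun x => (f x : ℂ)) :=
  cl_L Complex.ofRealCLM (by rw [Complex.ofRealCLM_norm]) hf h

theorem cl_re {a : ℝ} {f : V n → ℂ} (hf : ContDiff ℝ ∞ f) (h : Cl k a f) :
    Cl k a (fun x => (f x).re) :=
  cl_L Complex.reCLM (by rw [Complex.reCLM_norm]) hf h

theorem cl_im {a : ℝ} {f : V n → ℂ} (hf : ContDiff ℝ ∞ f) (h : Cl k a f) :
    Cl k a (fun x => (f x).im) :=
  cl_L Complex.imCLM (by rw [Complex.imCLM_norm]) hf h

theorem cl_conj {a : ℝ} {f : V n → ℂ} (hf : ContDiff ℝ ∞ f) (h : Cl k a f) :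
    Cl k a (fun x => star (f x)) :=
  cl_L (Complex.conjCLE : ℂ →L[ℝ] ℂ)
    (ContinuousLinearMap.opNorm_le_bound _ zero_le_one fun z => by
      rw [one_mul]
      exact (Complex.norm_conj z).le) hf h

/-- multiplication by `I` -/
def mI : ℂ →L[ℝ] ℂ := Complex.I • (ContinuousLinearMap.id ℝ ℂ)

theorem cl_parts {a : ℝ} {f : V n → ℂ} (hf : ContDiff ℝ ∞ f)
    (h1 : Cl k a (fun x => (f x).re)) (h2 : Cl k a (fun x => (f x).im)) : Cl k (a + a) f := by
  have h3 : f = fun x => (((f x).re : ℝ) : ℂ) + mI (((f x).im : ℝ) : ℂ) := by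
    funext x
    have : mI (((f x).im : ℝ) : ℂ) = Complex.I * (((f x).im : ℝ) : ℂ) := rfl
    rw [this, mul_comm, Complex.re_add_im]
  have h4 : ‖mI‖ ≤ 1 := by
    refine ContinuousLinearMap.opNorm_le_bound _ zero_le_one fun z => ?_
    have : mI z = Complex.I * z := rfl
    rw [this]
    simp
  have hr : ContDiff ℝ ∞ fun x => (f x).re := Complex.reCLM.contDiff.comp hf
  have hi : ContDiff ℝ ∞ fun x => (f x).im := Complex.imCLM.contDiff.comp hf
  have h5 := cl_L mI h4 (sm_cx hi) (cl_cx hi h2)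
  have h6 := cl_add2 (sm_cx hr) (mI.contDiff.comp (sm_cx hi)) (cl_cx hr h1) h5
  rw [h3]
  exact h6

theorem cl_pd {F : Type*} [NormedAddCommGroup F] [NormedSpace ℝ F] {δ : ℝ} {f : V n → F}
    (hf : ContDiff ℝ ∞ f) (h : Cl (k + 1) δ f) (i : Fin n) : Cl k δ (pd i f) := by
  intro l hl x
  let L : (V n →L[ℝ] F) →L[ℝ] F := ContinuousLinearMap.apply ℝ F (Pi.single i (1 : ℝ))
  have hL : ‖L‖ ≤ 1 := by
    refine ContinuousLinearMap.opNorm_le_bound _ zero_le_one fun T => ?_
    have h1 : L T = T (Pi.single i 1) := rfl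
    rw [h1, one_mul]
    refine (T.le_opNorm _).trans ?_
    rw [Pi.norm_single, norm_one, mul_one]
  have h2 : pd i f = L ∘ fderiv ℝ f := rfl
  rw [h2]
  have hfd : ContDiff ℝ ∞ (fderiv ℝ f) := hf.fderiv_right (by simp)
  refine (ContinuousLinearMap.norm_iteratedFDeriv_comp_left L hfd.contDiffAt
    (by exact_mod_cast le_top)).trans ?_
  rw [norm_iteratedFDeriv_fderiv]
  calc ‖L‖ * ‖iteratedFDeriv ℝ (l + 1) f x‖ ≤ 1 * ‖iteratedFDeriv ℝ (l + 1) f x‖ :=
        mul_le_mul_of_nonneg_right hL (norm_nonneg _)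
    _ ≤ δ := by rw [one_mul]; exact h (l + 1) (by omega) x

/-! ## From the derivatives to the function -/

/-- A function which vanishes off `bl0 n` is bounded by its derivatives. -/
theorem cl_of_pd (hn : 1 ≤ n) {g : V n → ℂ} (hg : ContDiff ℝ ∞ g) (h0 : ∀ x ∉ bl0 n, g x = 0)
    {η : ℝ} (h : ∀ i, Cl k η (pd i g)) : Cl (k + 1) (2 * n * η) g := by
  have hn1 : (1 : ℝ) ≤ n := by exact_mod_cast hn
  have hη : 0 ≤ η := cl_nn (h ⟨0, hn⟩)
  have hd : Cl k (n * η) (fderiv ℝ g) := by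
    let L : Fin n → (ℂ →L[ℝ] (V n →L[ℝ] ℂ)) := fun i =>
      ContinuousLinearMap.smulRightL ℝ (V n) ℂ
        (ContinuousLinearMap.proj (R := ℝ) (φ := fun _ : Fin n => ℝ) i)
    have hLa : ∀ i w v, L i w v = (v i : ℝ) • w := fun i w v => rfl
    have hL : ∀ i, ‖L i‖ ≤ 1 := by
      intro i
      refine ContinuousLinearMap.opNorm_le_bound _ zero_le_one fun t => ?_
      refine ContinuousLinearMap.opNorm_le_bound _ (by positivity) fun v => ?_
      rw [hLa, norm_smul, one_mul, mul_comm]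
      exact mul_le_mul_of_nonneg_left (norm_le_pi_norm v i) (norm_nonneg _)
    have e : fderiv ℝ g = fun y => ∑ i, L i (pd i g y) := by
      funext y
      ext v
      have hv : v = ∑ i, v i • (Pi.single i (1 : ℝ) : V n) := by
        funext j
        simp [Finset.sum_apply, Pi.single_apply]
      conv_lhs => rw [hv]
      rw [map_sum, sum_apply]
      refine Finset.sum_congr rfl fun i _ => ?_
      rw [map_smul, hLa]
      rfl
    have hsm : ∀ i, ContDiff ℝ ∞ fun y => L i (pd i g y) := fun i =>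
      (L i).contDiff.comp (contDiff_pd hg i)
    have h3 := cl_fsum (k := k) Finset.univ (f := fun i y => L i (pd i g y))
      (fun i _ => hsm i) (a := fun _ => η) fun i _ =>
      cl_L (L i) (hL i) (contDiff_pd hg i) (h i)
    rw [Finset.sum_const, Finset.card_univ, Fintype.card_fin, nsmul_eq_mul] at h3
    rw [e]
    exact h3
  intro l hl x
  rcases l with _ | l
  · rw [norm_iteratedFDeriv_zero]
    by_cases hx : x ∈ bl0 n
    · set y : V n := x + Pi.single ⟨0, hn⟩ 2 with hy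
      have hy0 : g y = 0 := by
        refine h0 y fun hyb => ?_
        have h1 : |y ⟨0, hn⟩| ≤ 1 / 2 := abs_le_of_sq (by norm_num) (by
          have : HY.sq y ≤ 1 / 4 := hyb
          linarith) _
        have h2 : |x ⟨0, hn⟩| ≤ 1 / 2 := abs_le_of_sq (by norm_num) (by
          have : HY.sq x ≤ 1 / 4 := hx
          linarith) _
        have h3 : y ⟨0, hn⟩ = x ⟨0, hn⟩ + 2 := by
          rw [hy, Pi.add_apply, Pi.single_eq_same]
        rw [h3] at h1
        have h4 := (abs_le.1 h1).2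
        have h5 := (abs_le.1 h2).1
        linarith
      have h4 := Convex.norm_image_sub_le_of_norm_fderiv_le (𝕜 := ℝ) (f := g) (s := univ)
        (C := n * η) (x := y) (y := x) (fun z _ => dfa hg z) (fun z _ => cl_sup hd z)
        convex_univ (mem_univ _) (mem_univ _)
      have h5 : ‖x - y‖ = 2 := by
        have : x - y = -(Pi.single ⟨0, hn⟩ 2 : V n) := by rw [hy]; abel
        rw [this, norm_neg, Pi.norm_single]
        norm_num
      rw [hy0, sub_zero, h5] at h4
      linarith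
    · rw [h0 x hx, norm_zero]
      positivity
  · rw [← norm_iteratedFDeriv_fderiv]
    refine (hd l (by omega) x).trans ?_
    have : 0 ≤ n * η := by positivity
    linarith

/-! ## The trace free part -/

theorem one_le1 {ι : Type*} [DecidableEq ι] (i j : ι) : ‖(1 : Matrix ι ι ℝ) i j‖ ≤ 1 := by
  by_cases h : i = j
  · subst h
    simp
  · rw [Matrix.one_apply_ne h]
    simp

theorem cl_s {s : MF n} (hs : SmM s) {δ : ℝ} (hδ : δ ≤ 1)
    (h : ∀ i j, Cl k δ (fun x => s x i j - (1 : Matrix (Fin n) (Fin n) ℝ) i j)) (i j : Fin n) :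
    Cl k 2 (fun x => s x i j) := by
  have h1 := cl_add2 ((hs i j).sub contDiff_const) contDiff_const (h i j)
    (cl_cst (n := n) (one_le1 i j))
  have e : (fun x => s x i j - (1 : Matrix (Fin n) (Fin n) ℝ) i j +
      (1 : Matrix (Fin n) (Fin n) ℝ) i j) = fun x => s x i j := by
    funext x
    ring
  rw [e] at h1
  exact cl_mono h1 le_rfl (by linarith)

theorem cl_P {P : MC n N} (hP : SmC P) {δ : ℝ} (hδ : δ ≤ 1) (h : ClC k δ (fun x => P x - 1))
    (a b : Fin N) : Cl k 2 (fun x => P x a b) := by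
  have h1 := cl_add2 ((hP a b).sub contDiff_const) contDiff_const (h a b)
    (cl_cst (n := n) (one_entry a b))
  have e : (fun x => P x a b - (1 : Matrix (Fin N) (Fin N) ℂ) a b +
      (1 : Matrix (Fin N) (Fin N) ℂ) a b) = fun x => P x a b := by
    funext x
    ring
  rw [e] at h1
  exact cl_mono h1 le_rfl (by linarith)

theorem cl_coef {s : MF n} (hn : 1 ≤ n) (hs : SmM s) {δ : ℝ} (hδ0 : 0 ≤ δ) (hδ : δ ≤ 1)
    (hδn : 6 * n * δ ≤ 1) (hδk : 2 ^ k * (6 * n * 2 ^ k * δ) ≤ 1)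
    (h : ∀ i j, Cl k δ (fun x => s x i j - (1 : Matrix (Fin n) (Fin n) ℝ) i j)) (i j : Fin n) :
    Cl k (4 * 2 ^ k) (fun x => s x i j / ipm s s x) := by
  have hn1 : (1 : ℝ) ≤ n := by exact_mod_cast hn
  have hip : ∀ x, 0 < ipm s s x := by
    intro x
    have h1 := ipm_ge (s := s) (x := x) hδ0 hδ hδn fun i j => by
      have := cl_sup (h i j) x
      rwa [Real.norm_eq_abs] at this
    linarith
  have hsi := ipm_cont hs hs
  -- `F = ipm / n`
  have hF1 : Cl k (3 * n * 2 ^ k * δ) (fun x => ipm s s x / n - 1) := by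
    have e1 : (fun x => ipm s s x / n - 1) = fun x => (1 / n : ℝ) * ∑ i, ∑ j,
        (s x i j - (1 : Matrix (Fin n) (Fin n) ℝ) i j) *
          (s x i j + (1 : Matrix (Fin n) (Fin n) ℝ) i j) := by
      funext x
      have e2 : (n : ℝ) = ∑ i : Fin n, ∑ j : Fin n, (1 : Matrix (Fin n) (Fin n) ℝ) i j ^ 2 := by
        have : ∀ i : Fin n, ∑ j : Fin n, (1 : Matrix (Fin n) (Fin n) ℝ) i j ^ 2 = 1 := by
          intro i
          rw [Finset.sum_eq_single i]
          · simp
          · intro j _ hj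
            rw [Matrix.one_apply_ne (Ne.symm hj)]
            simp
          · intro h
            exact absurd (Finset.mem_univ i) h
        simp [this]
      have e3 : ∑ i, ∑ j, (s x i j - (1 : Matrix (Fin n) (Fin n) ℝ) i j) *
          (s x i j + (1 : Matrix (Fin n) (Fin n) ℝ) i j) = ipm s s x - n := by
        conv_rhs => rw [e2]
        unfold ipm
        simp only [← Finset.sum_sub_distrib]
        refine Finset.sum_congr rfl fun i _ => Finset.sum_congr rfl fun j _ => ?_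
        ring
      rw [e3]
      field_simp
    rw [e1]
    have hp : ∀ i j, Cl k (2 ^ k * (δ * 3)) (fun x =>
        (s x i j - (1 : Matrix (Fin n) (Fin n) ℝ) i j) *
          (s x i j + (1 : Matrix (Fin n) (Fin n) ℝ) i j)) := by
      intro i j
      have h3 := cl_add2 (hs i j) contDiff_const (cl_s hs hδ h i j) (cl_cst (n := n) (one_le1 i j))
      have h4 := cl_mul2 ((hs i j).sub contDiff_const) ((hs i j).add contDiff_const) (h i j) h3
      exact cl_mono h4 le_rfl (by norm_num)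
    have hps : ∀ i j, ContDiff ℝ ∞ (fun x =>
        (s x i j - (1 : Matrix (Fin n) (Fin n) ℝ) i j) *
          (s x i j + (1 : Matrix (Fin n) (Fin n) ℝ) i j)) := fun i j =>
      ((hs i j).sub contDiff_const).mul ((hs i j).add contDiff_const)
    have h5 := cl_fsum (k := k) Finset.univ (f := fun i x => ∑ j,
        (s x i j - (1 : Matrix (Fin n) (Fin n) ℝ) i j) *
          (s x i j + (1 : Matrix (Fin n) (Fin n) ℝ) i j))
      (fun i _ => ContDiff.sum fun j _ => hps i j) (a := fun _ => n * (2 ^ k * (δ * 3)))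
      fun i _ => by
        have := cl_fsum (k := k) Finset.univ (f := fun j x =>
          (s x i j - (1 : Matrix (Fin n) (Fin n) ℝ) i j) *
          (s x i j + (1 : Matrix (Fin n) (Fin n) ℝ) i j)) (fun j _ => hps i j)
          (a := fun _ => 2 ^ k * (δ * 3)) fun j _ => hp i j
        rwa [Finset.sum_const, Finset.card_univ, Fintype.card_fin, nsmul_eq_mul] at this
    rw [Finset.sum_const, Finset.card_univ, Fintype.card_fin, nsmul_eq_mul] at h5
    have h6 := cl_clm (((1 : ℝ) / n) • ContinuousLinearMap.id ℝ ℝ)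
      (ContDiff.sum fun i _ => ContDiff.sum fun j _ => hps i j) h5
    have hnn : ‖((1 : ℝ) / n) • ContinuousLinearMap.id ℝ ℝ‖ ≤ 1 / n := by
      refine ContinuousLinearMap.opNorm_le_bound _ (by positivity) fun z => ?_
      show ‖((1 : ℝ) / n) * z‖ ≤ _
      rw [norm_mul, Real.norm_eq_abs (1 / (n : ℝ)), abs_of_pos (by positivity)]
    refine cl_mono h6 le_rfl ?_
    calc _ ≤ 1 / (n : ℝ) * (n * (n * (2 ^ k * (δ * 3)))) :=
          mul_le_mul_of_nonneg_right hnn (by positivity)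
      _ = 3 * n * 2 ^ k * δ := by field_simp
  have hqs : ContDiff ℝ ∞ fun x => (n : ℝ) / ipm s s x :=
    contDiff_const.div hsi fun x => (hip x).ne'
  have hvs : ContDiff ℝ ∞ fun x => (ipm s s x)⁻¹ := hsi.inv fun x => (hip x).ne'
  have hG : Cl k 2 (fun x => n / ipm s s x) := by
    have h7 := cl_invR (F := fun x => ipm s s x / n) (G := fun x => n / ipm s s x)
      (hsi.div_const _) hqs (fun x => by
        have := (hip x).ne'
        field_simp) (by linarith) hF1
    have h8 := cl_add2 (hqs.sub contDiff_const)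
      (contDiff_const (c := (1 : ℝ))) h7 (cl_cst (n := n) (c := (1 : ℝ)) (b := 1) (by simp))
    have e : (fun x => n / ipm s s x - 1 + 1) = fun x => n / ipm s s x := by
      funext x
      ring
    rw [e] at h8
    refine cl_mono h8 le_rfl ?_
    have h9 : 2 * (3 * n * 2 ^ k * δ) ≤ 1 := by
      have h10 : (1 : ℝ) ≤ 2 ^ k := one_le_pow₀ (by norm_num)
      have h11 : 0 ≤ 6 * n * 2 ^ k * δ := by positivity
      nlinarith
    linarith
  have hI : Cl k 2 (fun x => (ipm s s x)⁻¹) := by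
    have h6 := cl_L (((1 : ℝ) / n) • ContinuousLinearMap.id ℝ ℝ) (by
      refine ContinuousLinearMap.opNorm_le_bound _ zero_le_one fun z => ?_
      show ‖((1 : ℝ) / n) * z‖ ≤ _
      rw [norm_mul, Real.norm_eq_abs (1 / (n : ℝ)), abs_of_pos (by positivity)]
      refine mul_le_mul_of_nonneg_right ?_ (norm_nonneg _)
      rw [div_le_one (by linarith)]
      exact hn1) hqs hG
    have e : (fun x => (((1 : ℝ) / n) • ContinuousLinearMap.id ℝ ℝ) (n / ipm s s x)) =
        fun x => (ipm s s x)⁻¹ := by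
      funext x
      show (1 : ℝ) / n * (n / ipm s s x) = _
      field_simp
    rwa [e] at h6
  have h8 := cl_mul2 (hs i j) hvs (cl_s hs hδ h i j) hI
  have e : (fun x => s x i j * (ipm s s x)⁻¹) = fun x => s x i j / ipm s s x := by
    funext x
    rw [div_eq_mul_inv]
  rw [e] at h8
  exact cl_mono h8 le_rfl (by linarith)

/-- Bound of the trace free part. -/
theorem clc_tf {s : MF n} (hn : 1 ≤ n) (hs : SmM s) {δ : ℝ} (hδ0 : 0 ≤ δ) (hδ : δ ≤ 1)
    (hδn : 6 * n * δ ≤ 1) (hδk : 2 ^ k * (6 * n * 2 ^ k * δ) ≤ 1)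
    (h : ∀ i j, Cl k δ (fun x => s x i j - (1 : Matrix (Fin n) (Fin n) ℝ) i j))
    {H : Fin n → Fin n → MC n N} (hH : ∀ i j, SmC (H i j)) {b : ℝ} (hb : ∀ i j, ClC k b (H i j))
    (i j : Fin n) : ClC k ((1 + 8 * n ^ 2 * (2 ^ k) ^ 3) * b) (tfC s H i j) := by
  intro α β
  have hb0 : 0 ≤ b := cl_nn (hb i j α β)
  have hip : ∀ x, ipm s s x ≠ 0 := by
    intro x
    have h1 := ipm_ge (s := s) (x := x) hδ0 hδ hδn fun i j => by
      have := cl_sup (h i j) x
      rwa [Real.norm_eq_abs] at this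
    have hn1 : (1 : ℝ) ≤ n := by exact_mod_cast hn
    have : 0 < ipm s s x := by linarith
    exact this.ne'
  have hc := cl_coef hn hs hδ0 hδ hδn hδk h i j
  have hcs : ContDiff ℝ ∞ fun x => s x i j / ipm s s x := (hs i j).div (ipm_cont hs hs) hip
  have e1 : (fun x => tfC s H i j x α β) = fun x => H i j x α β -
      ((s x i j / ipm s s x : ℝ) : ℂ) * ∑ k, ∑ l, (s x k l : ℂ) * H k l x α β := by
    funext x
    unfold tfC ipC
    simp only [Matrix.sub_apply, Matrix.smul_apply, smul_eq_mul, Matrix.sum_apply]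
  have hps : ∀ k l, ContDiff ℝ ∞ fun x => (s x k l : ℂ) * H k l x α β := fun k l =>
    (sm_cx (hs k l)).mul (hH k l α β)
  have hp : ∀ i' l', Cl k (2 ^ k * (2 * b)) fun x => (s x i' l' : ℂ) * H i' l' x α β :=
    fun i' l' => cl_mul2 (sm_cx (hs i' l')) (hH i' l' α β) (cl_cx (hs i' l') (cl_s hs hδ h i' l'))
      (hb i' l' α β)
  have h5 := cl_fsum (k := k) Finset.univ (f := fun i' x => ∑ l', (s x i' l' : ℂ) * H i' l' x α β)
      (fun i _ => ContDiff.sum fun j _ => hps i j) (a := fun _ => n * (2 ^ k * (2 * b)))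
      fun i' _ => by
        have := cl_fsum (k := k) Finset.univ (f := fun l' x => (s x i' l' : ℂ) * H i' l' x α β)
          (fun j _ => hps i' j) (a := fun _ => 2 ^ k * (2 * b)) fun j _ => hp i' j
        rwa [Finset.sum_const, Finset.card_univ, Fintype.card_fin, nsmul_eq_mul] at this
  rw [Finset.sum_const, Finset.card_univ, Fintype.card_fin, nsmul_eq_mul] at h5
  have h6 := cl_mul2 (sm_cx hcs) (ContDiff.sum fun i _ => ContDiff.sum fun j _ => hps i j)
    (cl_cx hcs hc) h5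
  have h7 := cl_sub2 (hH i j α β)
    ((sm_cx hcs).mul (ContDiff.sum fun i _ => ContDiff.sum fun j _ => hps i j)) (hb i j α β) h6
  rw [e1]
  refine cl_mono h7 le_rfl (le_of_eq ?_)
  ring

/-- Bound of `Z`. -/
theorem clc_Z {s₁ s₂ : MF n} {P₁ P₂ : MC n N} (h1 : SmM s₁) (h2 : SmM s₂) (hP1 : SmC P₁)
    (hP2 : SmC P₂) {δ : ℝ} (hδ : δ ≤ 1)
    (c1 : ∀ i j, Cl k δ (fun x => s₁ x i j - (1 : Matrix (Fin n) (Fin n) ℝ) i j))
    (c2 : ∀ i j, Cl k δ (fun x => s₂ x i j - (1 : Matrix (Fin n) (Fin n) ℝ) i j))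
    (p1 : ClC k δ (fun x => P₁ x - 1)) (p2 : ClC k δ (fun x => P₂ x - 1)) (i j : Fin n) :
    ClC k (8 * 2 ^ k * δ) (Zt s₁ s₂ P₁ P₂ i j) := by
  intro a b
  have e : (fun x => Zt s₁ s₂ P₁ P₂ i j x a b) = fun x =>
      ((s₂ x i j - (1 : Matrix (Fin n) (Fin n) ℝ) i j) -
        (s₁ x i j - (1 : Matrix (Fin n) (Fin n) ℝ) i j) : ℝ) * P₂ x a b +
      (s₁ x i j : ℂ) * ((P₂ x - 1) a b - (P₁ x - 1) a b) := by
    funext x
    unfold Zt TP
    simp only [Matrix.sub_apply, Matrix.smul_apply, smul_eq_mul]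
    push_cast
    ring
  have m1 : ContDiff ℝ ∞ fun x => (s₂ x i j - (1 : Matrix (Fin n) (Fin n) ℝ) i j) -
        (s₁ x i j - (1 : Matrix (Fin n) (Fin n) ℝ) i j) :=
    ((h2 i j).sub contDiff_const).sub ((h1 i j).sub contDiff_const)
  have m2 : ContDiff ℝ ∞ fun x => (P₂ x - 1) a b := (hP2 a b).sub contDiff_const
  have m3 : ContDiff ℝ ∞ fun x => (P₁ x - 1) a b := (hP1 a b).sub contDiff_const
  have q1 := cl_sub2 ((h2 i j).sub contDiff_const) ((h1 i j).sub contDiff_const) (c2 i j) (c1 i j)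
  have q2 := cl_mul2 (sm_cx m1) (hP2 a b) (cl_cx m1 q1) (cl_P hP2 hδ p2 a b)
  have q3 := cl_sub2 m2 m3 (p2 a b) (p1 a b)
  have q4 := cl_mul2 (sm_cx (h1 i j)) (m2.sub m3) (cl_cx (h1 i j) (cl_s h1 hδ c1 i j)) q3
  have q5 := cl_add2 ((sm_cx m1).mul (hP2 a b)) ((sm_cx (h1 i j)).mul (m2.sub m3)) q2 q4
  rw [e]
  refine cl_mono q5 le_rfl (le_of_eq ?_)
  ring

end Vale.Agent.P088.PJ.H341
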