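import Vale.Agent.P088.R2.H341.V.JC

/-!
# P088, two arbitrary pairs near the flat one: row V_JR
-/

open MeasureTheory Set
open scoped ContDiff Matrix

noncomputable section

namespace Vale.Agent.P088.PJ.H341

open Vale.Agent.P088.LR Vale.Agent.P088.LR.U Vale.Agent.P088.LR.H158
open Vale.Agent.P088.HY (VV Bs Bn Un DB ipm tfp)
open Vale.Agent.P088.PJ
open Vale.Agent.P088.LR.U.H91 (cl_nn cl_clm cl_fsum cl_add2 cl_mul2 cl_invR)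

variable {n N k : ℕ}

/-! ## Interpolation -/

theorem bl0_Bn : bl0 n ⊆ Bn n := by
  intro x hx
  have h : HY.sq x ≤ 1 / 4 := hx
  show HY.sq x < 1
  linarith

theorem rp_le {I M Y : ℝ} (hI : 0 ≤ I) (hM : 1 ≤ M) (hY : 0 ≤ Y) (h : I ≤ M * Y ^ 16) :
    I ^ (3 / 8 : ℝ) ≤ M * Y ^ 6 := by
  have h1 : I ^ (3 / 8 : ℝ) ≤ (M * Y ^ 16) ^ (3 / 8 : ℝ) :=
    Real.rpow_le_rpow hI h (by norm_num)
  rw [Real.mul_rpow (by linarith) (by positivity)] at h1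
  have h2 : (Y ^ 16) ^ (3 / 8 : ℝ) = Y ^ 6 := by
    rw [← Real.rpow_natCast, ← Real.rpow_mul hY, ← Real.rpow_natCast]
    norm_num
  have h3 : M ^ (3 / 8 : ℝ) ≤ M := by
    calc M ^ (3 / 8 : ℝ) ≤ M ^ (1 : ℝ) :=
          Real.rpow_le_rpow_of_exponent_le hM (by norm_num)
      _ = M := Real.rpow_one M
  rw [h2] at h1
  exact h1.trans (mul_le_mul_of_nonneg_right h3 (by positivity))

theorem itp_r {K : ℕ} {C : ℝ} (hC : 0 < C)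
    (hI : ∀ f : V n → ℝ, ContDiff ℝ ∞ f → (∀ x ∉ Bn n, f x = 0) → ∀ B : ℝ, Cl K B f →
      Cl k (C * (∫ x, f x ^ 2) ^ (3 / 8 : ℝ) * B ^ (1 / 4 : ℝ)) f) {f : V n → ℝ}
    (hf : ContDiff ℝ ∞ f) (h0 : ∀ x ∉ bl0 n, f x = 0) (h1 : Cl K 1 f) {M Y : ℝ} (hM : 1 ≤ M)
    (hY : 0 ≤ Y) (h : ∫ x, f x ^ 2 ≤ M * Y ^ 16) : Cl k (C * (M * Y ^ 6)) f := by
  have h2 := hI f hf (fun x hx => h0 x fun h => hx (bl0_Bn h)) 1 h1
  rw [Real.one_rpow, mul_one] at h2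
  exact cl_mono h2 le_rfl (mul_le_mul_of_nonneg_left
    (rp_le (integral_nonneg fun x => sq_nonneg _) hM hY h) hC.le)

theorem itp_c {K : ℕ} {C : ℝ} (hC : 0 < C)
    (hI : ∀ f : V n → ℝ, ContDiff ℝ ∞ f → (∀ x ∉ Bn n, f x = 0) → ∀ B : ℝ, Cl K B f →
      Cl k (C * (∫ x, f x ^ 2) ^ (3 / 8 : ℝ) * B ^ (1 / 4 : ℝ)) f) {f : V n → ℂ}
    (hf : ContDiff ℝ ∞ f) (h0 : ∀ x ∉ bl0 n, f x = 0) (h1 : Cl K 1 f) {M Y : ℝ} (hM : 1 ≤ M)
    (hY : 0 ≤ Y) (h : ∫ x, ‖f x‖ ^ 2 ≤ M * Y ^ 16) : Cl k (2 * C * M * Y ^ 6) f := by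
  have hr : ContDiff ℝ ∞ fun x => (f x).re := Complex.reCLM.contDiff.comp hf
  have hi : ContDiff ℝ ∞ fun x => (f x).im := Complex.imCLM.contDiff.comp hf
  have hn : Integrable fun x => ‖f x‖ ^ 2 :=
    intg (hf.continuous.norm.pow 2) fun x hx => by rw [h0 x hx]; simp
  have a1 : ∫ x, (f x).re ^ 2 ≤ M * Y ^ 16 := by
    refine le_trans (integral_mono (intg (hr.continuous.pow 2) fun x hx => by
      rw [h0 x hx]; simp) hn fun x => ?_) h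
    have := Complex.abs_re_le_norm (f x)
    show (f x).re ^ 2 ≤ ‖f x‖ ^ 2
    rw [← sq_abs]
    exact pow_le_pow_left₀ (abs_nonneg _) this 2
  have a2 : ∫ x, (f x).im ^ 2 ≤ M * Y ^ 16 := by
    refine le_trans (integral_mono (intg (hi.continuous.pow 2) fun x hx => by
      rw [h0 x hx]; simp) hn fun x => ?_) h
    have := Complex.abs_im_le_norm (f x)
    show (f x).im ^ 2 ≤ ‖f x‖ ^ 2
    rw [← sq_abs]
    exact pow_le_pow_left₀ (abs_nonneg _) this 2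
  have b1 := itp_r hC hI hr (fun x hx => by rw [h0 x hx]; simp) (cl_re hf h1) hM hY a1
  have b2 := itp_r hC hI hi (fun x hx => by rw [h0 x hx]; simp) (cl_im hf h1) hM hY a2
  refine cl_mono (cl_parts hf b1 b2) le_rfl (le_of_eq ?_)
  ring

/-! ## The test tensor -/

section data

variable {δ : ℝ} {Ω : Set (V n)} {s₁ s₂ : MF n} {P₁ P₂ : MC n N}
  {G₁ G₂ Y D : Fin n → MC n N}

/-- The test tensor. -/
def kt (s₁ s₂ : MF n) (P₁ P₂ : MC n N) (D : Fin n → MC n N) (i j : Fin n) : MC n N := fun x =>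
  (tfC s₁ (Vt s₁ s₂ P₁ P₂ D) i j x)ᴴ

theorem Vt_sym (h : RP k δ Ω s₁ s₂ P₁ P₂ G₁ G₂ Y D) (i j : Fin n) (x : V n) :
    Vt s₁ s₂ P₁ P₂ D i j x = Vt s₁ s₂ P₁ P₂ D j i x := by
  unfold Vt Zt TP
  rw [(h.d₁.sy x).apply i j, (h.d₂.sy x).apply i j]
  abel

theorem kt_sym (h : RP k δ Ω s₁ s₂ P₁ P₂ G₁ G₂ Y D) (i j : Fin n) :
    kt s₁ s₂ P₁ P₂ D i j = kt s₁ s₂ P₁ P₂ D j i := by
  funext x
  unfold kt tfC
  rw [Vt_sym h i j, (h.d₁.sy x).apply i j]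

theorem te_kt (h : RP k δ Ω s₁ s₂ P₁ P₂ G₁ G₂ Y D) (h0 : ∀ x, ipm s₁ s₁ x ≠ 0) :
    Te Ω s₁ (kt s₁ s₂ P₁ P₂ D) where
  sm := fun i j => SmC_star (sm_W h h0 i j)
  sy := kt_sym h
  z := fun i j x hx => by
    unfold kt
    rw [W_off h i j x hx, Matrix.conjTranspose_zero]
  tf := fun x => by
    have h1 := ipC_tf (s := s₁) (H := Vt s₁ s₂ P₁ P₂ D) (h0 x)
    have h2 : ipC s₁ (kt s₁ s₂ P₁ P₂ D) x = (ipC s₁ (tfC s₁ (Vt s₁ s₂ P₁ P₂ D)) x)ᴴ := by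
      unfold ipC kt
      rw [Matrix.conjTranspose_sum]
      refine Finset.sum_congr rfl fun i _ => ?_
      rw [Matrix.conjTranspose_sum]
      refine Finset.sum_congr rfl fun j _ => ?_
      rw [Matrix.conjTranspose_smul, Complex.star_def, Complex.conj_ofReal]
    rw [h2, h1, Matrix.conjTranspose_zero]

theorem pair_pt (h : RP k δ Ω s₁ s₂ P₁ P₂ G₁ G₂ Y D) (h0 : ∀ x, ipm s₁ s₁ x ≠ 0) (x : V n) :
    ∑ i, ∑ j, (Vt s₁ s₂ P₁ P₂ D i j x * kt s₁ s₂ P₁ P₂ D i j x).trace =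
      ((∑ i, ∑ j, nq (tfC s₁ (Vt s₁ s₂ P₁ P₂ D) i j x) : ℝ) : ℂ) := by
  set W := tfC s₁ (Vt s₁ s₂ P₁ P₂ D) with hW
  set Q := ipC s₁ (Vt s₁ s₂ P₁ P₂ D) x with hQ
  have h1 : ∀ i j, (Vt s₁ s₂ P₁ P₂ D i j x * kt s₁ s₂ P₁ P₂ D i j x).trace =
      ((nq (W i j x) : ℝ) : ℂ) + ((1 / ipm s₁ s₁ x : ℝ) : ℂ) *
        (Q * ((s₁ x i j : ℂ) • kt s₁ s₂ P₁ P₂ D i j x)).trace := by
    intro i j
    have e : Vt s₁ s₂ P₁ P₂ D i j x = W i j x + ((s₁ x i j / ipm s₁ s₁ x : ℝ) : ℂ) • Q := by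
      rw [hW, hQ]
      unfold tfC
      abel
    have e2 : kt s₁ s₂ P₁ P₂ D i j x = (W i j x)ᴴ := rfl
    rw [e, add_mul, Matrix.trace_add, e2, trace_mul_conj, Matrix.smul_mul, Matrix.mul_smul,
      Matrix.trace_smul, Matrix.trace_smul, smul_eq_mul, smul_eq_mul]
    push_cast
    ring
  simp only [h1, Finset.sum_add_distrib]
  have h2 : ∑ i, ∑ j, ((1 / ipm s₁ s₁ x : ℝ) : ℂ) *
        (Q * ((s₁ x i j : ℂ) • kt s₁ s₂ P₁ P₂ D i j x)).trace = 0 := by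
    simp only [← Finset.mul_sum, ← Matrix.trace_sum]
    have h3 : ∑ i, ∑ j, (s₁ x i j : ℂ) • kt s₁ s₂ P₁ P₂ D i j x = 0 := (te_kt h h0).tf x
    rw [h3]
    simp
  rw [h2, add_zero]
  push_cast
  rfl

theorem pair_int (h : RP k δ Ω s₁ s₂ P₁ P₂ G₁ G₂ Y D) (h0 : ∀ x, ipm s₁ s₁ x ≠ 0) :
    ‖∫ x, ∑ i, ∑ j, (Vt s₁ s₂ P₁ P₂ D i j x * kt s₁ s₂ P₁ P₂ D i j x).trace‖ =
      ∑ i, ∑ j, n2 (tfC s₁ (Vt s₁ s₂ P₁ P₂ D) i j) := by
  simp only [pair_pt h h0]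
  rw [integral_complex_ofReal, ← X_eq h h0]
  have h1 : 0 ≤ ∑ i, ∑ j, n2 (tfC s₁ (Vt s₁ s₂ P₁ P₂ D) i j) :=
    Finset.sum_nonneg fun _ _ => Finset.sum_nonneg fun _ _ => n2_nonneg _
  rw [Complex.norm_real, Real.norm_eq_abs, abs_of_nonneg h1]

theorem kt_n2 (i j : Fin n) : n2 (kt s₁ s₂ P₁ P₂ D i j) =
    n2 (tfC s₁ (Vt s₁ s₂ P₁ P₂ D) i j) := by
  unfold n2 kt
  simp only [nq_conj]

/-! ## Bounds -/

theorem Z_pt (hδ1 : δ ≤ 1) (h : RP k δ Ω s₁ s₂ P₁ P₂ G₁ G₂ Y D) (x : V n) :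
    ∑ i, ∑ j, nq (Zt s₁ s₂ P₁ P₂ i j x) ≤
      8 * N ^ 2 * (∑ i, ∑ j, (s₂ x i j - s₁ x i j) ^ 2) + 8 * n ^ 2 * nq (P₂ x - P₁ x) := by
  have h1 : ∀ i j, nq (Zt s₁ s₂ P₁ P₂ i j x) ≤
      8 * N ^ 2 * (s₂ x i j - s₁ x i j) ^ 2 + 8 * nq (P₂ x - P₁ x) := by
    intro i j
    have e0 : Zt s₁ s₂ P₁ P₂ i j x =
        ((s₂ x i j - s₁ x i j : ℝ) : ℂ) • P₂ x + (s₁ x i j : ℂ) • (P₂ x - P₁ x) := by
      unfold Zt TP
      ext a b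
      simp only [Matrix.sub_apply, Matrix.add_apply, Matrix.smul_apply, smul_eq_mul]
      push_cast
      ring
    have h2 : s₁ x i j ^ 2 ≤ 4 := by
      have h3 := near_one h x i j
      have h4 : |(1 : Matrix (Fin n) (Fin n) ℝ) i j| ≤ 1 := one_le1 i j
      have h5 : |s₁ x i j| ≤ 2 := by
        calc |s₁ x i j| = |(s₁ x i j - (1 : Matrix (Fin n) (Fin n) ℝ) i j) +
              (1 : Matrix (Fin n) (Fin n) ℝ) i j| := by rw [sub_add_cancel]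
          _ ≤ δ + 1 := (abs_add_le _ _).trans (add_le_add h3 h4)
          _ ≤ 2 := by linarith
      rw [← sq_abs]
      have := pow_le_pow_left₀ (abs_nonneg _) h5 2
      linarith
    rw [e0]
    refine (nq_add _ _).trans ?_
    rw [nq_smul, nq_smul, Complex.norm_real, Complex.norm_real, Real.norm_eq_abs,
      Real.norm_eq_abs, sq_abs, sq_abs]
    have h5 : (s₂ x i j - s₁ x i j) ^ 2 * nq (P₂ x) ≤ (s₂ x i j - s₁ x i j) ^ 2 * (4 * N ^ 2) :=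
      mul_le_mul_of_nonneg_left (P_sup hδ1 h x) (sq_nonneg _)
    have h6 : s₁ x i j ^ 2 * nq (P₂ x - P₁ x) ≤ 4 * nq (P₂ x - P₁ x) :=
      mul_le_mul_of_nonneg_right h2 (nq_nonneg _)
    linarith
  calc _ ≤ ∑ i : Fin n, ∑ j : Fin n, (8 * N ^ 2 * (s₂ x i j - s₁ x i j) ^ 2 +
        8 * nq (P₂ x - P₁ x)) :=
        Finset.sum_le_sum fun i _ => Finset.sum_le_sum fun j _ => h1 i j
    _ = _ := by
        simp only [Finset.sum_add_distrib, ← Finset.mul_sum, Finset.sum_const, Finset.card_univ,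
          Fintype.card_fin, nsmul_eq_mul]
        ring

theorem sm_ZZ (h : RP k δ Ω s₁ s₂ P₁ P₂ G₁ G₂ Y D) (i j : Fin n) :
    SmC (Zt s₁ s₂ P₁ P₂ i j) := sm_Zt h.d₁.ss h.d₂.ss h.d₁.sP h.d₂.sP i j

theorem Z_off (h : RP k δ Ω s₁ s₂ P₁ P₂ G₁ G₂ Y D) (i j : Fin n) :
    ∀ x ∉ bl0 n, Zt s₁ s₂ P₁ P₂ i j x = 0 := by
  intro x hx
  have hx' : x ∉ Ω := fun h' => hx (h.sub h')
  unfold Zt TP
  rw [h.os x hx', h.oP x hx', sub_self]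

theorem Z_int (hδ1 : δ ≤ 1) (h : RP k δ Ω s₁ s₂ P₁ P₂ G₁ G₂ Y D) :
    ∑ i, ∑ j, n2 (Zt s₁ s₂ P₁ P₂ i j) ≤
      8 * N ^ 2 * hs s₁ s₂ + 8 * n ^ 2 * n2 (fun x => P₂ x - P₁ x) := by
  have i0 : ∀ i j, Integrable fun x => nq (Zt s₁ s₂ P₁ P₂ i j x) := fun i j =>
    int_nq (sm_ZZ h i j) (Z_off h i j)
  have e : ∑ i, ∑ j, n2 (Zt s₁ s₂ P₁ P₂ i j) = ∫ x, ∑ i, ∑ j, nq (Zt s₁ s₂ P₁ P₂ i j x) := by
    rw [integral_finsetSum _ fun i _ => integrable_finsetSum _ fun j _ => i0 i j]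
    refine Finset.sum_congr rfl fun i _ => ?_
    rw [integral_finsetSum _ fun j _ => i0 i j]
    rfl
  have i2 : Integrable fun x => ∑ i, ∑ j, (s₂ x i j - s₁ x i j) ^ 2 := by
    refine intg (continuous_finsetSum _ fun i _ => continuous_finsetSum _ fun j _ =>
      (((h.d₂.ss i j).continuous.sub (h.d₁.ss i j).continuous).pow 2)) fun x hx => ?_
    rw [h.os x fun h' => hx (h.sub h')]
    simp
  have i3 : Integrable fun x => nq (P₂ x - P₁ x) :=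
    int_nq (sm_sub h.d₂.sP h.d₁.sP) fun x hx => by
      rw [h.oP x fun h' => hx (h.sub h'), sub_self]
  have i4 : Integrable fun x => 8 * N ^ 2 * (∑ i, ∑ j, (s₂ x i j - s₁ x i j) ^ 2) +
      8 * n ^ 2 * nq (P₂ x - P₁ x) := (i2.const_mul _).add (i3.const_mul _)
  rw [e]
  refine (integral_mono (integrable_finsetSum _ fun i _ => integrable_finsetSum _ fun j _ =>
    i0 i j) i4 (Z_pt hδ1 h)).trans (le_of_eq ?_)
  rw [integral_add (i2.const_mul _) (i3.const_mul _), integral_const_mul, integral_const_mul]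
  rfl

/-- An entry is bounded by the whole. -/
theorem ent_int {H : MC n N} (hH : SmC H) (h0 : ∀ x ∉ bl0 n, H x = 0) (a b : Fin N) :
    ∫ x, ‖H x a b‖ ^ 2 ≤ n2 H := by
  refine integral_mono (intg ((hH a b).continuous.norm.pow 2) fun x hx => ?_) (int_nq hH h0)
    fun x => nq_entry (H x) a b
  rw [h0 x hx]
  simp

theorem single_le2 {f : Fin n → Fin n → ℝ} (h : ∀ i j, 0 ≤ f i j) (i j : Fin n) :
    f i j ≤ ∑ i, ∑ j, f i j := by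
  have h1 : f i j ≤ ∑ j, f i j :=
    Finset.single_le_sum (f := fun j => f i j) (fun j _ => h i j) (Finset.mem_univ j)
  have h2 : ∑ j, f i j ≤ ∑ i, ∑ j, f i j :=
    Finset.single_le_sum (f := fun i => ∑ j, f i j)
      (fun i _ => Finset.sum_nonneg fun j _ => h i j) (Finset.mem_univ i)
  exact h1.trans h2

theorem hs_ent (h : RP k δ Ω s₁ s₂ P₁ P₂ G₁ G₂ Y D) (i j : Fin n) :
    ∫ x, (s₁ x i j - s₂ x i j) ^ 2 ≤ hs s₁ s₂ := by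
  have i2 : Integrable fun x => ∑ i, ∑ j, (s₂ x i j - s₁ x i j) ^ 2 := by
    refine intg (continuous_finsetSum _ fun i _ => continuous_finsetSum _ fun j _ =>
      (((h.d₂.ss i j).continuous.sub (h.d₁.ss i j).continuous).pow 2)) fun x hx => ?_
    rw [h.os x fun h' => hx (h.sub h')]
    simp
  refine integral_mono (intg (((h.d₁.ss i j).continuous.sub (h.d₂.ss i j).continuous).pow 2)
    fun x hx => ?_) i2 fun x => ?_
  · rw [h.os x fun h' => hx (h.sub h')]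
    simp
  · have := single_le2 (f := fun i j => (s₂ x i j - s₁ x i j) ^ 2) (fun i j => sq_nonneg _) i j
    calc (s₁ x i j - s₂ x i j) ^ 2 = (s₂ x i j - s₁ x i j) ^ 2 := by ring
      _ ≤ _ := this

end data

/-! ## The closing inequality -/

theorem jr_arith {Y δ CK z1 j1 j2 r : ℝ} (hY0 : 0 < Y) (hY1 : Y ≤ 1) (hδ1 : δ ≤ 1)
    (hCK : 0 < CK) (hj1 : 0 ≤ j1) (hj2 : 0 ≤ j2) (hr : 0 ≤ r)
    (hkey : Y ^ 16 ≤ CK * δ * (z1 * Y ^ 8) * Y ^ 8 + CK * (z1 * Y ^ 8) * (j1 * Y ^ 6 * (r * Y ^ 3)) +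
      CK * (j2 * Y ^ 6) * (δ * Y ^ 8 + j1 * Y ^ 6 * (r * Y ^ 3)) * (r * Y ^ 3))
    (h1 : CK * z1 * δ ≤ 1 / 4)
    (h2 : (CK * z1 * j1 * r + CK * j2 * r * (1 + j1 * r)) * Y ≤ 1 / 4) : False := by
  have e : CK * δ * (z1 * Y ^ 8) * Y ^ 8 + CK * (z1 * Y ^ 8) * (j1 * Y ^ 6 * (r * Y ^ 3)) +
      CK * (j2 * Y ^ 6) * (δ * Y ^ 8 + j1 * Y ^ 6 * (r * Y ^ 3)) * (r * Y ^ 3) =
      Y ^ 16 * (CK * z1 * δ + (CK * z1 * j1 * r + CK * j2 * r * (δ + j1 * r * Y)) * Y) := by ring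
  rw [e] at hkey
  have h3 : CK * j2 * r * (δ + j1 * r * Y) ≤ CK * j2 * r * (1 + j1 * r) := by
    refine mul_le_mul_of_nonneg_left ?_ (by positivity)
    have : j1 * r * Y ≤ j1 * r * 1 := mul_le_mul_of_nonneg_left hY1 (by positivity)
    linarith
  have h4 : (CK * z1 * j1 * r + CK * j2 * r * (δ + j1 * r * Y)) * Y ≤ 1 / 4 :=
    (mul_le_mul_of_nonneg_right (by linarith) hY0.le).trans h2
  have h5 : 0 < Y ^ 16 := by positivity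
  nlinarith

end Vale.Agent.P088.PJ.H341
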