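import Vale.Agent.P088.R2.H341.V.JR

/-!
# P088, two arbitrary pairs near the flat one: row V_JR
-/

open MeasureTheory Set
open scoped ContDiff Matrix

noncomputable section

namespace Vale.Agent.P088.PJ.H341

open Vale.Agent.P088.LR Vale.Agent.P088.LR.U Vale.Agent.P088.LR.H158
open Vale.Agent.P088.HY (VV Bs Bn Un DB ipm tfp)
open Vale.Agent.P088.PJ
open Vale.Agent.P088.LR.U.H91 (cl_nn cl_clm cl_fsum cl_add2 cl_mul2 cl_invR)

variable {n N k : ℕ}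

theorem Dt_mono2 {k k' : ℕ} {δ δ' : ℝ} {Ω : Set (V n)} {s : MF n} {P : MC n N} {G : Fin n → MC n N}
    (h : Dt k δ Ω s P G) (hk : k' ≤ k) (hδ : δ ≤ δ') : Dt k' δ' Ω s P G where
  ss := h.ss
  sy := h.sy
  one := h.one
  sP := h.sP
  hP := h.hP
  sG := h.sG
  hG := h.hG
  cs := fun i j => cl_mono (h.cs i j) hk hδ
  cP := fun a b => cl_mono (h.cP a b) hk hδ
  cG := fun i a b => cl_mono (h.cG i a b) hk hδ
  dq := h.dq
  pe := h.pe

theorem RP_mono2 {k k' : ℕ} {δ δ' : ℝ} {Ω : Set (V n)} {s₁ s₂ : MF n} {P₁ P₂ : MC n N}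
    {G₁ G₂ Y D : Fin n → MC n N} (h : RP k δ Ω s₁ s₂ P₁ P₂ G₁ G₂ Y D) (hk : k' ≤ k)
    (hδ : δ ≤ δ') : RP k' δ' Ω s₁ s₂ P₁ P₂ G₁ G₂ Y D where
  op := h.op
  reg := h.reg
  sub := h.sub
  d₁ := Dt_mono2 h.d₁ hk hδ
  d₂ := Dt_mono2 h.d₂ hk hδ
  os := h.os
  oP := h.oP
  oG := h.oG
  oD := h.oD
  sY := h.sY
  sD := h.sD
  cY := fun a i j => cl_mono (h.cY a i j) hk hδ
  cD := fun a i j => cl_mono (h.cD a i j) hk hδ
  tD := h.tD
  hY := h.hY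
  gi := h.gi
  st := h.st

section data

variable {δ : ℝ} {Ω : Set (V n)} {s₁ s₂ : MF n} {P₁ P₂ : MC n N}
  {G₁ G₂ Y D : Fin n → MC n N}

section itp

variable {K m : ℕ} {C : ℝ} (hC : 0 < C)
    (hI : ∀ f : V n → ℝ, ContDiff ℝ ∞ f → (∀ x ∉ Bn n, f x = 0) → ∀ B : ℝ, Cl K B f →
      Cl m (C * (∫ x, f x ^ 2) ^ (3 / 8 : ℝ) * B ^ (1 / 4 : ℝ)) f)

include hC hI

theorem bnd_Z (h : RP k δ Ω s₁ s₂ P₁ P₂ G₁ G₂ Y D) (hK : K ≤ k) (hδ : δ ≤ 1)
    (hδK : 8 * 2 ^ K * δ ≤ 1) {z y : ℝ} (hz : 1 ≤ z) (hy : 0 ≤ y)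
    (hZ : ∑ i, ∑ j, n2 (Zt s₁ s₂ P₁ P₂ i j) ≤ z * y ^ 16) (i j : Fin n) :
    ClC m (2 * C * z * y ^ 6) (Zt s₁ s₂ P₁ P₂ i j) := by
  intro a b
  have h1 := clc_Z (k := K) h.d₁.ss h.d₂.ss h.d₁.sP h.d₂.sP hδ
    (fun i j => cl_mono (h.d₁.cs i j) hK le_rfl) (fun i j => cl_mono (h.d₂.cs i j) hK le_rfl)
    (fun a b => cl_mono (h.d₁.cP a b) hK le_rfl) (fun a b => cl_mono (h.d₂.cP a b) hK le_rfl) i j
  refine itp_c hC hI (sm_ZZ h i j a b) (fun x hx => by rw [Z_off h i j x hx]; rfl)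
    (cl_mono (h1 a b) le_rfl hδK) hz hy ?_
  exact ((ent_int (sm_ZZ h i j) (Z_off h i j) a b).trans
    (single_le2 (f := fun i j => n2 (Zt s₁ s₂ P₁ P₂ i j)) (fun _ _ => n2_nonneg _) i j)).trans hZ

theorem bnd_D (h : RP k δ Ω s₁ s₂ P₁ P₂ G₁ G₂ Y D) (hK : K + 1 ≤ k) (hδ : δ ≤ 1)
    {z y : ℝ} (hz : 1 ≤ z) (hy : 0 ≤ y) (hD : nD D ≤ z * y ^ 16) (a i : Fin n) :
    ClC m (2 * C * z * y ^ 6) (pdm i (D a)) := by
  intro α β
  have hoff : ∀ x ∉ bl0 n, pdm i (D a) x = 0 := fun x hx =>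
    pdm_off h.reg (h.sD a) (h.oD a) i x fun h' => hx (h.sub h')
  have h1 : Cl K 1 (fun x => pdm i (D a) x α β) :=
    cl_mono (cl_pd (h.sD a α β) (cl_mono (h.cD a α β) hK le_rfl) i) le_rfl hδ
  refine itp_c hC hI (sm_pdm (h.sD a) i α β) (fun x hx => by rw [hoff x hx]; rfl) h1 hz hy ?_
  exact ((ent_int (sm_pdm (h.sD a) i) hoff α β).trans
    (single_le2 (f := fun a i => n2 (pdm i (D a))) (fun _ _ => n2_nonneg _) a i)).trans hD

theorem bnd_s (h : RP k δ Ω s₁ s₂ P₁ P₂ G₁ G₂ Y D) (hK : K ≤ k) (hδ : δ ≤ 1 / 2)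
    {z y : ℝ} (hz : 1 ≤ z) (hy : 0 ≤ y) (hH : hs s₁ s₂ ≤ z * y ^ 16) :
    DB m (2 * C * z * y ^ 6) s₁ s₂ := by
  intro i j
  have hsm : ContDiff ℝ ∞ fun x => s₁ x i j - s₂ x i j := (h.d₁.ss i j).sub (h.d₂.ss i j)
  have h1 : Cl K 1 (fun x => s₁ x i j - s₂ x i j) := by
    have h2 := cl_sub2 ((h.d₁.ss i j).sub contDiff_const) ((h.d₂.ss i j).sub contDiff_const)
      (cl_mono (h.d₁.cs i j) hK le_rfl) (cl_mono (h.d₂.cs i j) hK le_rfl)
    have e : (fun x => (s₁ x i j - (1 : Matrix (Fin n) (Fin n) ℝ) i j) -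
        (s₂ x i j - (1 : Matrix (Fin n) (Fin n) ℝ) i j)) = fun x => s₁ x i j - s₂ x i j := by
      funext x
      ring
    rw [e] at h2
    exact cl_mono h2 le_rfl (by linarith)
  have h3 := itp_r hC hI hsm (fun x hx => by
    rw [h.os x fun h' => hx (h.sub h'), sub_self]) h1 hz hy ((hs_ent h i j).trans hH)
  refine cl_mono h3 le_rfl ?_
  have : 0 ≤ C * z * y ^ 6 := by positivity
  linarith

end itp

/-- Bound of the test tensor. -/
theorem bnd_W (hn : 1 ≤ n) {m : ℕ} (h : RP k δ Ω s₁ s₂ P₁ P₂ G₁ G₂ Y D) (hm : m ≤ k) (hδ0 : 0 ≤ δ)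
    (hδ : δ ≤ 1) (hδn : 6 * n * δ ≤ 1) (hδk : 2 ^ m * (6 * n * 2 ^ m * δ) ≤ 1) {b b' : ℝ}
    (hZ : ∀ i j, ClC m b (Zt s₁ s₂ P₁ P₂ i j)) (hD : ∀ a i, ClC m b' (pdm i (D a))) (i j : Fin n) :
    ClC m ((1 + 8 * n ^ 2 * (2 ^ m) ^ 3) * (b + b' + b')) (tfC s₁ (Vt s₁ s₂ P₁ P₂ D) i j) := by
  refine clc_tf hn h.d₁.ss hδ0 hδ hδn hδk (fun i j => cl_mono (h.d₁.cs i j) hm le_rfl)
    (sm_Vt h.d₁.ss h.d₂.ss h.d₁.sP h.d₂.sP h.sD) (fun i j α β => ?_) i j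
  have h1 := cl_add2 ((sm_ZZ h i j α β).add (sm_pdm (h.sD j) i α β)) (sm_pdm (h.sD i) j α β)
    (cl_add2 (sm_ZZ h i j α β) (sm_pdm (h.sD j) i α β) (hZ i j α β) (hD j i α β)) (hD i j α β)
  exact h1

theorem bnd_kt {m : ℕ} {b : ℝ} (h : RP k δ Ω s₁ s₂ P₁ P₂ G₁ G₂ Y D) (h0 : ∀ x, ipm s₁ s₁ x ≠ 0)
    (i j : Fin n) (hW : ClC m b (tfC s₁ (Vt s₁ s₂ P₁ P₂ D) i j)) :
    ClC m b (kt s₁ s₂ P₁ P₂ D i j) := fun α β => cl_conj (sm_W h h0 i j β α) (hW β α)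

/-- Smallness. -/
theorem small_X (hn : 1 ≤ n) (h : RP k δ Ω s₁ s₂ P₁ P₂ G₁ G₂ Y D) (hk : 1 ≤ k) (hδ0 : 0 ≤ δ)
    (hδ : δ ≤ 1) (hδn : 6 * n * δ ≤ 1) :
    ∑ i, ∑ j, n2 (tfC s₁ (Vt s₁ s₂ P₁ P₂ D) i j) ≤
      (n ^ 2 * (volume.real (bl0 n) * (N ^ 2 * ((1 + 8 * n ^ 2) * 10) ^ 2))) * δ ^ 2 := by
  have hZ : ∀ i j, ClC 0 (8 * 2 ^ 0 * δ) (Zt s₁ s₂ P₁ P₂ i j) :=
    clc_Z h.d₁.ss h.d₂.ss h.d₁.sP h.d₂.sP hδ
    (fun i j => cl_mono (h.d₁.cs i j) (Nat.zero_le _) le_rfl)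
    (fun i j => cl_mono (h.d₂.cs i j) (Nat.zero_le _) le_rfl)
    (fun a b => cl_mono (h.d₁.cP a b) (Nat.zero_le _) le_rfl)
    (fun a b => cl_mono (h.d₂.cP a b) (Nat.zero_le _) le_rfl)
  have hD : ∀ a i, ClC 0 δ (pdm i (D a)) := fun a i α β =>
    cl_pd (h.sD a α β) (cl_mono (h.cD a α β) (by omega) le_rfl) i
  have hW := bnd_W hn h (Nat.zero_le _) hδ0 hδ hδn (by linarith) hZ hD
  have hc : ∀ i j x, nq (tfC s₁ (Vt s₁ s₂ P₁ P₂ D) i j x) ≤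
      N ^ 2 * ((1 + 8 * n ^ 2) * 10) ^ 2 * δ ^ 2 := by
    intro i j x
    refine (nq_le (c := (1 + 8 * n ^ 2) * 10 * δ) fun a b => ?_).trans (le_of_eq ?_)
    · refine (cl_sup (hW i j a b) x).trans (le_of_eq ?_)
      ring
    · ring
  have h1 : ∀ i j, n2 (tfC s₁ (Vt s₁ s₂ P₁ P₂ D) i j) ≤
      volume.real (bl0 n) * (N ^ 2 * ((1 + 8 * n ^ 2) * 10) ^ 2 * δ ^ 2) := by
    intro i j
    have hoff : ∀ x ∉ bl0 n, nq (tfC s₁ (Vt s₁ s₂ P₁ P₂ D) i j x) = 0 := fun x hx => by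
      rw [W_off h i j x fun h' => hx (h.sub h'), nq_zero]
    unfold n2
    rw [← set_eq hoff]
    have h2 := norm_setIntegral_le_of_norm_le_const (μ := volume) (s := bl0 n)
      (f := fun x => nq (tfC s₁ (Vt s₁ s₂ P₁ P₂ D) i j x))
      (C := N ^ 2 * ((1 + 8 * n ^ 2) * 10) ^ 2 * δ ^ 2) isCompact_bl0.measure_lt_top
      (fun x _ => by
        rw [Real.norm_of_nonneg (nq_nonneg _)]
        exact hc i j x)
    rw [Real.norm_of_nonneg (integral_nonneg fun x => nq_nonneg _)] at h2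
    linarith
  calc ∑ i, ∑ j, n2 (tfC s₁ (Vt s₁ s₂ P₁ P₂ D) i j) ≤ ∑ _i : Fin n, ∑ _j : Fin n,
        volume.real (bl0 n) * (N ^ 2 * ((1 + 8 * n ^ 2) * 10) ^ 2 * δ ^ 2) :=
        Finset.sum_le_sum fun i _ => Finset.sum_le_sum fun j _ => h1 i j
    _ = _ := by simp; ring

/-- The case of equality. -/
theorem jr_zero (hn : 1 ≤ n) (hδ : n * δ < 1) (h : RP k δ Ω s₁ s₂ P₁ P₂ G₁ G₂ Y D)
    (hz : hs s₁ s₂ + nD D + n2 (fun x => P₂ x - P₁ x) ≤ 0)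
    (hQ : (∀ i j, ClC 1 0 (Zt s₁ s₂ P₁ P₂ i j)) → (∀ a, ClC 2 0 (D a)) →
      ∀ i x a b, ‖Qt s₁ s₂ G₁ G₂ i x a b‖ ≤ 0) :
    (∀ x, s₂ x = s₁ x) ∧ (∀ x, P₂ x = P₁ x) ∧ ∀ i x, G₂ i x = G₁ i x := by
  have a1 : 0 ≤ hs s₁ s₂ := integral_nonneg fun x => Finset.sum_nonneg fun i _ =>
    Finset.sum_nonneg fun j _ => sq_nonneg _
  have a2 : 0 ≤ nD D := by
    rw [nD_eq h]
    exact integral_nonneg fun x => SD_nonneg D x
  have a3 : 0 ≤ n2 (fun x => P₂ x - P₁ x) := n2_nonneg _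
  have b1 : hs s₁ s₂ = 0 := by linarith
  have b2 : nD D = 0 := by linarith
  have b3 : n2 (fun x => P₂ x - P₁ x) = 0 := by linarith
  have hs0 : ∀ x, s₂ x = s₁ x := by
    have hc : Continuous fun x => ∑ i, ∑ j, (s₂ x i j - s₁ x i j) ^ 2 :=
      continuous_finsetSum _ fun i _ => continuous_finsetSum _ fun j _ =>
      (((h.d₂.ss i j).continuous.sub (h.d₁.ss i j).continuous).pow 2)
    have h1 := zero_of_int hc (fun x => Finset.sum_nonneg fun i _ =>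
      Finset.sum_nonneg fun j _ => sq_nonneg _) (intg hc fun x hx => by
        rw [h.os x fun h' => hx (h.sub h')]
        simp) b1
    intro x
    ext i j
    have h2 := single_le2 (f := fun i j => (s₂ x i j - s₁ x i j) ^ 2) (fun i j => sq_nonneg _) i j
    have h3 : (s₂ x i j - s₁ x i j) ^ 2 ≤ 0 := h2.trans (h1 x).le
    have h4 : s₂ x i j - s₁ x i j = 0 := by
      have := sq_nonneg (s₂ x i j - s₁ x i j)
      exact pow_eq_zero_iff (two_ne_zero) |>.1 (le_antisymm h3 this)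
    linarith
  have hP0 : ∀ x, P₂ x = P₁ x := by
    have hsP := sm_sub h.d₂.sP h.d₁.sP
    have h1 := zero_of_int (cont_nq hsP) (fun x => nq_nonneg _) (int_nq hsP fun x hx => by
      rw [h.oP x fun h' => hx (h.sub h'), sub_self]) b3
    intro x
    have := nq_eq_zero (h1 x)
    exact sub_eq_zero.1 this
  have hD0 : ∀ a x, D a x = 0 := by
    have h1 := zero_of_int (SD_cont h.sD) (SD_nonneg D) (int_SD h) (by rw [← nD_eq h]; exact b2)
    have h2 : ∀ a i x, pdm i (D a) x = 0 := by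
      intro a i x
      have h3 := single_le2 (f := fun a i => nq (pdm i (D a) x)) (fun _ _ => nq_nonneg _) a i
      have h4 : nq (pdm i (D a) x) ≤ 0 := h3.trans (h1 x).le
      exact nq_eq_zero (le_antisymm h4 (nq_nonneg _))
    intro a x
    ext α β
    have h5 : ∀ i, Cl 0 0 (pd i fun x => D a x α β) := by
      intro i
      have : (pd i fun x => D a x α β) = fun _ => 0 := by
        funext y
        have h6 : pd i (fun x => D a x α β) y = pdm i (D a) y α β := rfl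
        rw [h6, h2]
        rfl
      rw [this]
      exact cl_cst (by simp)
    have h7 := cl_sup (cl_of_pd hn (h.sD a α β) (fun y hy => by
      rw [h.oD a y fun h' => hy (h.sub h')]; rfl) h5) x
    rw [mul_zero] at h7
    simpa using h7
  have hq := hQ (fun i j a b => by
    have : (fun x => Zt s₁ s₂ P₁ P₂ i j x a b) = fun _ => 0 := by
      funext x
      unfold Zt TP
      rw [hs0, hP0, sub_self]
      rfl
    rw [this]
    exact cl_cst (by simp)) (fun c a b => by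
    have : (fun x => D c x a b) = fun _ => 0 := by
      funext x
      rw [hD0]
      rfl
    rw [this]
    exact cl_cst (by simp))
  refine ⟨hs0, hP0, fun i x => ?_⟩
  ext a b
  -- the linear system
  set g : Fin n → ℂ := fun j => G₂ j x a b - G₁ j x a b with hg
  have h1 : ∀ i, ∑ j, (s₁ x i j : ℂ) * g j = 0 := by
    intro i
    have h2 := hq i x a b
    have h3 : Qt s₁ s₂ G₁ G₂ i x a b = 0 := by simpa using h2
    have h4 : Qt s₁ s₂ G₁ G₂ i x a b = ∑ j, (s₁ x i j : ℂ) * g j := by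
      unfold Qt kp
      rw [Matrix.sub_apply, Matrix.sum_apply, Matrix.sum_apply, ← Finset.sum_sub_distrib]
      refine Finset.sum_congr rfl fun j _ => ?_
      simp only [Matrix.smul_apply, smul_eq_mul, hg]
      rw [hs0 x]
      ring
    rw [← h4]
    exact h3
  obtain ⟨m, _, hm⟩ := Finset.exists_max_image (Finset.univ : Finset (Fin n)) (fun j => ‖g j‖)
    ⟨i, Finset.mem_univ i⟩
  have h2 : g m = -∑ j, ((s₁ x m j - (1 : Matrix (Fin n) (Fin n) ℝ) m j : ℝ) : ℂ) * g j := by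
    have e : ∑ j, ((s₁ x m j - (1 : Matrix (Fin n) (Fin n) ℝ) m j : ℝ) : ℂ) * g j =
        (∑ j, (s₁ x m j : ℂ) * g j) - g m := by
      have e2 : g m = ∑ j, (((1 : Matrix (Fin n) (Fin n) ℝ) m j : ℝ) : ℂ) * g j := by
        rw [Finset.sum_eq_single m]
        · rw [Matrix.one_apply_eq, Complex.ofReal_one, one_mul]
        · intro j _ hj
          rw [Matrix.one_apply_ne (Ne.symm hj)]
          simp
        · intro h
          exact absurd (Finset.mem_univ m) h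
      conv_rhs => rw [e2]
      rw [← Finset.sum_sub_distrib]
      refine Finset.sum_congr rfl fun j _ => ?_
      push_cast
      ring
    rw [e, h1 m]
    ring
  have h3 : ‖g m‖ ≤ n * δ * ‖g m‖ := by
    conv_lhs => rw [h2]
    rw [norm_neg]
    refine (norm_sum_le _ _).trans ?_
    calc ∑ j, ‖((s₁ x m j - (1 : Matrix (Fin n) (Fin n) ℝ) m j : ℝ) : ℂ) * g j‖
        ≤ ∑ _j : Fin n, δ * ‖g m‖ := by
          refine Finset.sum_le_sum fun j _ => ?_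
          rw [norm_mul, Complex.norm_real, Real.norm_eq_abs]
          have h4 := near_one h x m j
          have h5 := hm j (Finset.mem_univ j)
          exact mul_le_mul h4 h5 (norm_nonneg _) ((abs_nonneg _).trans h4)
      _ = n * δ * ‖g m‖ := by simp; ring
  have h4 : ‖g m‖ = 0 := by
    have := norm_nonneg (g m)
    nlinarith
  have h5 : ‖g i‖ ≤ 0 := by
    rw [← h4]
    exact hm i (Finset.mem_univ i)
  have h6 : g i = 0 := by simpa using h5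
  exact sub_eq_zero.1 h6

end data

end Vale.Agent.P088.PJ.H341
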