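import Vale.Agent.P088.R2.H341.V.JR2

/-!
# P088, two arbitrary pairs near the flat one: row V_JR
-/

open MeasureTheory Set
open scoped ContDiff Matrix

noncomputable section

namespace Vale.Agent.P088.PJ.H341

open Vale.Agent.P088.LR Vale.Agent.P088.LR.U Vale.Agent.P088.LR.H158
open Vale.Agent.P088.HY (VV Bs Bn Un DB ipm tfp)
open Vale.Agent.P088.PJ
open Vale.Agent.P088.LR.U.H91 (cl_nn cl_clm cl_fsum cl_add2 cl_mul2 cl_invR)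

variable {n N : ℕ}

/-- The statement of `RowKEY` for given constants. -/
def KeyP (n N k : ℕ) (C δ₀ τ₀ : ℝ) : Prop :=
  ∀ δ : ℝ, 0 ≤ δ → δ ≤ δ₀ → ∀ (Ω : Set (V n)) (s₁ s₂ : MF n) (P₁ P₂ : MC n N)
  (G₁ G₂ Y D : Fin n → MC n N), RP k δ Ω s₁ s₂ P₁ P₂ G₁ G₂ Y D →
  ∀ k2 : Fin n → Fin n → MC n N, Te Ω s₁ k2 → ∀ J J' η τ : ℝ, 0 ≤ J → 0 ≤ J' → 0 ≤ η →
  (∀ i j, ClC k J' (k2 i j)) → (∀ i x a b, ‖Qt s₁ s₂ G₁ G₂ i x a b‖ ≤ J) → DB k η s₁ s₂ →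
  τ₀ ≤ τ → τ * η ≤ δ₀ → ∀ z h : ℝ, 0 ≤ z → 0 ≤ h →
  (∑ i, ∑ j, n2 (Zt s₁ s₂ P₁ P₂ i j)) + nD D ≤ z ^ 2 → (∑ i, ∑ j, n2 (k2 i j)) ≤ h ^ 2 →
  ‖∫ x, ∑ i, ∑ j, (Vt s₁ s₂ P₁ P₂ D i j x * k2 i j x).trace‖ ≤
    C * δ * z * h + C * z * (J' / √τ) + C * J * (δ * h + J' / √τ) / √τ

theorem sqrt_tau {t y : ℝ} (ht : 0 < t) (hy : 0 < y) : √((t / y ^ 3) ^ 2) = t / y ^ 3 :=
  Real.sqrt_sq (by positivity)

/-- The main step. -/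
theorem jr_step {kK : ℕ} {CK dK tK z1 b1 δ y : ℝ} (hn : 1 ≤ n) (hCK : 0 < CK)
    (hdK : 0 < dK) (htK : 0 < tK) (KEY : KeyP n N kK CK dK tK) {k : ℕ} (hk : kK ≤ k)
    {Ω : Set (V n)} {s₁ s₂ : MF n} {P₁ P₂ : MC n N} {G₁ G₂ Y D : Fin n → MC n N}
    (h : RP k δ Ω s₁ s₂ P₁ P₂ G₁ G₂ Y D) (h0 : ∀ x, ipm s₁ s₁ x ≠ 0)
    (hδ0 : 0 ≤ δ) (hδ1 : δ ≤ 1) (hδK : δ ≤ dK) (hδn : 6 * n * δ ≤ 1)
    (hδk : 2 ^ kK * (6 * n * 2 ^ kK * δ) ≤ 1) (hy0 : 0 < y) (hy1 : y ≤ 1) (hz1 : 1 ≤ z1)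
    (hb1 : 0 < b1)
    (hX : ∑ i, ∑ j, n2 (tfC s₁ (Vt s₁ s₂ P₁ P₂ D) i j) = y ^ 16)
    (hZD : (∑ i, ∑ j, n2 (Zt s₁ s₂ P₁ P₂ i j)) + nD D ≤ z1 * y ^ 16)
    (bZ : ∀ i j, ClC kK (b1 * y ^ 6) (Zt s₁ s₂ P₁ P₂ i j))
    (bD : ∀ a i, ClC kK (b1 * y ^ 6) (pdm i (D a)))
    (bs : DB kK (b1 * y ^ 6) s₁ s₂) {j2 : ℝ} (hj2 : 0 ≤ j2)
    (bQ : ∀ i x a b, ‖Qt s₁ s₂ G₁ G₂ i x a b‖ ≤ j2 * y ^ 6)
    {j1 r : ℝ} (hj1 : j1 = (1 + 8 * n ^ 2 * (2 ^ kK) ^ 3) * (3 * b1)) (hr : r = 1 / √(dK / b1))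
    (ht : tK * b1 * y ≤ dK) (h1 : CK * z1 * δ ≤ 1 / 4)
    (h2 : (CK * z1 * j1 * r + CK * j2 * r * (1 + j1 * r)) * y ≤ 1 / 4) : False := by
  have hj10 : 0 ≤ j1 := by rw [hj1]; positivity
  set t0 : ℝ := √(dK / b1) with ht0
  have ht00 : 0 < t0 := Real.sqrt_pos.2 (by positivity)
  have ht02 : t0 ^ 2 = dK / b1 := Real.sq_sqrt (by positivity)
  have hr0 : 0 ≤ r := by rw [hr]; positivity
  have hy6 : y ^ 6 ≤ y := by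
    calc y ^ 6 = y ^ 5 * y := by ring
      _ ≤ 1 * y := mul_le_mul_of_nonneg_right (pow_le_one₀ hy0.le hy1) hy0.le
      _ = y := one_mul y
  -- the parameter
  have hτe : (t0 / y ^ 3) ^ 2 * (b1 * y ^ 6) = dK := by
    rw [div_pow, ht02]
    field_simp
  have hτ1 : tK ≤ (t0 / y ^ 3) ^ 2 := by
    have h3 : tK * (b1 * y ^ 6) ≤ (t0 / y ^ 3) ^ 2 * (b1 * y ^ 6) := by
      rw [hτe]
      calc tK * (b1 * y ^ 6) = tK * b1 * y ^ 6 := by ring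
        _ ≤ tK * b1 * y := mul_le_mul_of_nonneg_left hy6 (by positivity)
        _ ≤ dK := ht
    exact le_of_mul_le_mul_right h3 (by positivity)
  have bk : ∀ i j, ClC kK (j1 * y ^ 6) (kt s₁ s₂ P₁ P₂ D i j) := by
    intro i j
    refine bnd_kt h h0 i j fun α β => ?_
    refine cl_mono (bnd_W hn h hk hδ0 hδ1 hδn hδk bZ bD i j α β) le_rfl (le_of_eq ?_)
    rw [hj1]
    ring
  have hkey := KEY δ hδ0 hδK Ω s₁ s₂ P₁ P₂ G₁ G₂ Y D (RP_mono h hk) (kt s₁ s₂ P₁ P₂ D)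
    (te_kt h h0) (j2 * y ^ 6) (j1 * y ^ 6) (b1 * y ^ 6) ((t0 / y ^ 3) ^ 2) (by positivity)
    (by positivity) (by positivity) bk bQ bs hτ1 hτe.le (z1 * y ^ 8) (y ^ 8) (by positivity)
    (by positivity) (by
      refine hZD.trans ?_
      have h3 : z1 * 1 ≤ z1 * z1 := mul_le_mul_of_nonneg_left hz1 (by linarith)
      calc z1 * y ^ 16 ≤ (z1 * z1) * y ^ 16 :=
            mul_le_mul_of_nonneg_right (by linarith) (by positivity)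
        _ = (z1 * y ^ 8) ^ 2 := by ring) (by
      simp only [kt_n2]
      rw [hX]
      exact le_of_eq (by ring))
  rw [pair_int h h0, hX, sqrt_tau ht00 hy0] at hkey
  have e1 : ∀ u : ℝ, u / (t0 / y ^ 3) = u * (r * y ^ 3) := by
    intro u
    rw [hr]
    field_simp
  rw [e1, e1] at hkey
  exact jr_arith hy0 hy1 hδ1 hCK hj10 hj2 hr0 hkey h1 h2

/-- The energy inequality with one constant. -/
theorem zd_arith {N n CG z1 H S m Z E : ℝ} (hCG : 0 < CG)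
    (hz1 : z1 = (8 * N ^ 2 + 8 * n ^ 2 + 1) * CG + 1) (h1 : 0 ≤ H) (h2 : 0 ≤ S) (h3 : 0 ≤ m)
    (hE : 0 ≤ E) (hge : H + S + m ≤ CG * E) (hZ : Z ≤ 8 * N ^ 2 * H + 8 * n ^ 2 * m) :
    Z + S ≤ z1 * E ∧ H ≤ z1 * E ∧ S ≤ z1 * E := by
  have e1 : 0 ≤ 8 * n ^ 2 * H := by positivity
  have e2 : 0 ≤ 8 * N ^ 2 * m := by positivity
  have e3 : 0 ≤ (8 * N ^ 2 + 8 * n ^ 2) * S := by positivity
  have e4 : CG * E ≤ z1 * E := by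
    refine mul_le_mul_of_nonneg_right ?_ hE
    rw [hz1]
    have : 0 ≤ (8 * N ^ 2 + 8 * n ^ 2) * CG := by positivity
    linarith
  refine ⟨?_, by linarith, by linarith⟩
  calc Z + S ≤ (8 * N ^ 2 + 8 * n ^ 2 + 1) * (H + S + m) := by linarith
    _ ≤ (8 * N ^ 2 + 8 * n ^ 2 + 1) * (CG * E) := mul_le_mul_of_nonneg_left hge (by positivity)
    _ ≤ z1 * E := by rw [hz1]; linarith

/-- The quantitative part. -/
theorem jr_quant {kK KI : ℕ} {CK dK tK z1 b1 CG CQ CI CX δ y y0 j1 j2 r A2 : ℝ} (hn : 1 ≤ n)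
    (hCK : 0 < CK) (hdK : 0 < dK) (htK : 0 < tK) (KEY : KeyP n N kK CK dK tK)
    (hCG : 0 < CG) (hCI : 0 < CI)
    (ITP : ∀ f : V n → ℝ, ContDiff ℝ ∞ f → (∀ x ∉ Bn n, f x = 0) → ∀ B : ℝ, Cl KI B f →
      Cl (kK + 1) (CI * (∫ x, f x ^ 2) ^ (3 / 8 : ℝ) * B ^ (1 / 4 : ℝ)) f)
    (hz1 : z1 = (8 * N ^ 2 + 8 * n ^ 2 + 1) * CG + 1) (hz10 : 1 ≤ z1) (hb1 : b1 = 2 * CI * z1)
    (hb10 : 0 < b1) (hj1 : j1 = (1 + 8 * n ^ 2 * (2 ^ kK) ^ 3) * (3 * b1))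
    (hj2 : j2 = CQ * ((2 * n + 1) * b1)) (hj20 : 0 ≤ j2) (hr : r = 1 / √(dK / b1))
    (hA2 : A2 = CK * z1 * j1 * r + CK * j2 * r * (1 + j1 * r)) (hA20 : 0 ≤ A2)
    (hy00 : 0 < y0) (hyA : A2 * y0 ≤ 1 / 4) (hy01 : y0 ≤ 1) (hyT : tK * b1 * y0 ≤ dK)
    (hCX : CX = n ^ 2 * (volume.real (bl0 n) * (N ^ 2 * ((1 + 8 * n ^ 2) * 10) ^ 2)))
    (hCX0 : 0 ≤ CX) (hδ0 : 0 < δ) (hδK : δ ≤ dK) (d1 : δ ≤ 1 / 2) (d2 : 6 * n * δ ≤ 1)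
    (d3 : 2 ^ kK * (6 * n * 2 ^ kK * δ) ≤ 1) (d4 : 8 * 2 ^ KI * δ ≤ 1)
    (d5 : CK * z1 * δ ≤ 1 / 4) (d6 : CX * δ ≤ y0 ^ 16) {k : ℕ} (m1 : kK ≤ k) (m4 : KI + 1 ≤ k)
    {Ω : Set (V n)} {s₁ s₂ : MF n} {P₁ P₂ : MC n N} {G₁ G₂ Y D : Fin n → MC n N}
    (h : RP k δ Ω s₁ s₂ P₁ P₂ G₁ G₂ Y D) (h0 : ∀ x, ipm s₁ s₁ x ≠ 0)
    (hge : hs s₁ s₂ + nD D + n2 (fun x => P₂ x - P₁ x) ≤ CG * y ^ 16)
    (hX : ∑ i, ∑ j, n2 (tfC s₁ (Vt s₁ s₂ P₁ P₂ D) i j) = y ^ 16)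
    (hQB : ∀ J : ℝ, 0 ≤ J → (∀ i j, ClC 1 J (Zt s₁ s₂ P₁ P₂ i j)) →
      (∀ a, ClC 2 J (D a)) → ∀ i x a b, ‖Qt s₁ s₂ G₁ G₂ i x a b‖ ≤ CQ * J)
    (hypos : 0 < y) : False := by
  have hsm := small_X hn h (by omega) hδ0.le (by linarith) d2
  rw [← hCX, hX] at hsm
  have hyy0 : y ≤ y0 := by
    have h1 : y ^ 16 ≤ y0 ^ 16 := by
      refine hsm.trans (le_trans ?_ d6)
      have h3 : δ ^ 2 ≤ δ := by nlinarith
      exact mul_le_mul_of_nonneg_left h3 hCX0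
    exact (pow_le_pow_iff_left₀ hypos.le hy00.le (by norm_num)).1 h1
  have a1 : 0 ≤ hs s₁ s₂ := integral_nonneg fun x => Finset.sum_nonneg fun i _ =>
    Finset.sum_nonneg fun j _ => sq_nonneg _
  have a2 : 0 ≤ nD D := by
    rw [nD_eq h]
    exact integral_nonneg fun x => SD_nonneg D x
  have a3 : 0 ≤ n2 (fun x => P₂ x - P₁ x) := n2_nonneg _
  have hy16 : 0 < y ^ 16 := by positivity
  obtain ⟨hZD, hHz, hSz⟩ := zd_arith hCG hz1 a1 a2 a3 hy16.le hge (Z_int (by linarith) h)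
  have bZ := bnd_Z hCI ITP h (K := KI) (by omega) (by linarith) d4 hz10 hypos.le
    (by linarith)
  have bD := bnd_D hCI ITP h m4 (by linarith) hz10 hypos.le hSz
  have bs := bnd_s hCI ITP h (K := KI) (by omega) d1 hz10 hypos.le hHz
  rw [← hb1] at bZ bD bs
  have hb6 : 0 ≤ b1 * y ^ 6 := by positivity
  have hn1 : (1 : ℝ) ≤ n := by exact_mod_cast hn
  have hbn : b1 * y ^ 6 ≤ (2 * n + 1) * (b1 * y ^ 6) := by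
    have : 0 ≤ 2 * n * (b1 * y ^ 6) := by positivity
    linarith
  have bQ : ∀ i x a b, ‖Qt s₁ s₂ G₁ G₂ i x a b‖ ≤ j2 * y ^ 6 := by
    have h3 := hQB ((2 * n + 1) * (b1 * y ^ 6)) (by positivity)
      (fun i j a b => cl_mono (bZ i j a b) (by omega) hbn)
      (fun c a b => by
        have h4 := cl_of_pd (k := 1) hn (h.sD c a b) (fun x hx => by
          rw [h.oD c x fun h' => hx (h.sub h')]; rfl) (η := b1 * y ^ 6) (fun i =>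
          cl_mono (bD c i a b) (by omega) le_rfl)
        exact cl_mono h4 le_rfl (by linarith))
    intro i x a b
    refine (h3 i x a b).trans (le_of_eq ?_)
    rw [hj2]
    ring
  refine jr_step (n := n) (N := N) hn hCK hdK htK KEY m1 h h0 hδ0.le (by linarith) hδK d2 d3
    hypos (hyy0.trans hy01) hz10 hb10 hX hZD
    (fun i j a b => cl_mono (bZ i j a b) (by omega) le_rfl)
    (fun c i a b => cl_mono (bD c i a b) (by omega) le_rfl)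
    (fun i j => cl_mono (bs i j) (by omega) le_rfl) hj20 bQ hj1 hr ?_ d5 ?_
  · exact (mul_le_mul_of_nonneg_left hyy0 (by positivity)).trans hyT
  · rw [← hA2]
    exact (mul_le_mul_of_nonneg_left hyy0 hA20).trans hyA

/-- **Row V_JR**: rigidity of the reduced data. -/
theorem rowJR : RowKEY → RowGE → RowQB → HY.RowITP → RowJR := by
  intro hKEY hGE hQB hITP n N hn hN
  obtain ⟨kK, CK, dK, tK, hCK, hdK, htK, KEY⟩ := hKEY n N hn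
  obtain ⟨kG, CG, dG, hCG, hdG, GE⟩ := hGE n N hn hN
  obtain ⟨kQ, CQ, dQ, hCQ, hdQ, QB⟩ := hQB n N
  obtain ⟨KI, CI, hCI, ITP⟩ := hITP n (kK + 1)
  have hn1 : (1 : ℝ) ≤ n := by
    have : 1 ≤ n := by omega
    exact_mod_cast this
  -- the constants
  obtain ⟨z1, hz1⟩ : ∃ z : ℝ, z = (8 * N ^ 2 + 8 * n ^ 2 + 1) * CG + 1 := ⟨_, rfl⟩
  have hz10 : 1 ≤ z1 := by
    rw [hz1]
    have : 0 ≤ (8 * (N : ℝ) ^ 2 + 8 * n ^ 2 + 1) * CG := by positivity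
    linarith
  obtain ⟨b1, hb1⟩ : ∃ z : ℝ, z = 2 * CI * z1 := ⟨_, rfl⟩
  have hb10 : 0 < b1 := by rw [hb1]; positivity
  obtain ⟨j1, hj1⟩ : ∃ z : ℝ, z = (1 + 8 * n ^ 2 * (2 ^ kK) ^ 3) * (3 * b1) := ⟨_, rfl⟩
  have hj10 : 0 ≤ j1 := by rw [hj1]; positivity
  obtain ⟨j2, hj2⟩ : ∃ z : ℝ, z = CQ * ((2 * n + 1) * b1) := ⟨_, rfl⟩
  have hj20 : 0 ≤ j2 := by rw [hj2]; positivity
  obtain ⟨r, hr⟩ : ∃ z : ℝ, z = 1 / √(dK / b1) := ⟨_, rfl⟩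
  have hr0 : 0 ≤ r := by rw [hr]; positivity
  obtain ⟨A2, hA2⟩ : ∃ z : ℝ, z = CK * z1 * j1 * r + CK * j2 * r * (1 + j1 * r) := ⟨_, rfl⟩
  have hA20 : 0 ≤ A2 := by rw [hA2]; positivity
  obtain ⟨y0, hy0⟩ : ∃ z : ℝ, z = 1 / (1 + 4 * A2 + tK * b1 / dK) := ⟨_, rfl⟩
  have hD0 : 0 < 1 + 4 * A2 + tK * b1 / dK := by positivity
  have hy00 : 0 < y0 := by rw [hy0]; positivity
  have hyy : (1 + 4 * A2 + tK * b1 / dK) * y0 = 1 := by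
    rw [hy0]
    field_simp
  have q1 : 0 ≤ 4 * A2 * y0 := by positivity
  have q2 : 0 ≤ tK * b1 / dK * y0 := by positivity
  have hyA : A2 * y0 ≤ 1 / 4 := by nlinarith
  have hy01 : y0 ≤ 1 := by nlinarith
  have hyT : tK * b1 * y0 ≤ dK := by
    have h1 : tK * b1 / dK * y0 ≤ 1 := by nlinarith
    have h2 : tK * b1 / dK * y0 * dK ≤ 1 * dK := mul_le_mul_of_nonneg_right h1 hdK.le
    have e : tK * b1 / dK * y0 * dK = tK * b1 * y0 := by field_simp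
    linarith
  obtain ⟨CX, hCX⟩ : ∃ z : ℝ,
    z = n ^ 2 * (volume.real (bl0 n) * (N ^ 2 * ((1 + 8 * n ^ 2) * 10) ^ 2)) := ⟨_, rfl⟩
  have hCX0 : 0 ≤ CX := by rw [hCX]; positivity
  obtain ⟨c, hc⟩ : ∃ z : ℝ, z = 2 + 6 * n + 2 ^ kK * (6 * n * 2 ^ kK) + 8 * 2 ^ KI +
    4 * CK * z1 + CX / y0 ^ 16 := ⟨_, rfl⟩
  have hc0 : 0 < c := by rw [hc]; positivity
  obtain ⟨δ, hδ⟩ : ∃ z : ℝ, z = min (min dK dG) (min dQ (1 / c)) := ⟨_, rfl⟩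
  have hδ0 : 0 < δ := by
    rw [hδ]
    exact lt_min (lt_min hdK hdG) (lt_min hdQ (by positivity))
  have hδK : δ ≤ dK := by rw [hδ]; exact (min_le_left _ _).trans (min_le_left _ _)
  have hδG : δ ≤ dG := by rw [hδ]; exact (min_le_left _ _).trans (min_le_right _ _)
  have hδQ : δ ≤ dQ := by rw [hδ]; exact (min_le_right _ _).trans (min_le_left _ _)
  have hδc : c * δ ≤ 1 := by
    have : δ ≤ 1 / c := by rw [hδ]; exact (min_le_right _ _).trans (min_le_right _ _)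
    rw [le_div_iff₀ hc0] at this
    linarith
  have p0 : 0 ≤ 6 * (n : ℝ) * δ := by positivity
  have p1 : 0 ≤ 2 ^ kK * (6 * n * 2 ^ kK * δ) := by positivity
  have p2 : 0 ≤ 8 * 2 ^ KI * δ := by positivity
  have p3 : 0 ≤ 4 * CK * z1 * δ := by positivity
  have p4 : 0 ≤ CX / y0 ^ 16 * δ := by positivity
  have p5 : 2 * δ + 6 * n * δ + 2 ^ kK * (6 * n * 2 ^ kK * δ) + 8 * 2 ^ KI * δ +
      4 * CK * z1 * δ + CX / y0 ^ 16 * δ ≤ 1 := by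
    calc _ = c * δ := by rw [hc]; ring
      _ ≤ 1 := hδc
  have d1 : δ ≤ 1 / 2 := by linarith
  have d2 : 6 * n * δ ≤ 1 := by linarith
  have d3 : 2 ^ kK * (6 * n * 2 ^ kK * δ) ≤ 1 := by linarith
  have d4 : 8 * 2 ^ KI * δ ≤ 1 := by linarith
  have d5 : CK * z1 * δ ≤ 1 / 4 := by linarith
  have d6 : CX * δ ≤ y0 ^ 16 := by
    have h1 : CX / y0 ^ 16 * δ ≤ 1 := by linarith
    have h2 : CX / y0 ^ 16 * δ * y0 ^ 16 ≤ 1 * y0 ^ 16 :=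
      mul_le_mul_of_nonneg_right h1 (by positivity)
    have e : CX / y0 ^ 16 * δ * y0 ^ 16 = CX * δ := by field_simp
    linarith
  have d7 : (n : ℝ) * δ < 1 := by linarith
  refine ⟨max (max kK kG) (max kQ (KI + 1)), δ, hδ0, ?_⟩
  intro Ω s₁ s₂ P₁ P₂ G₁ G₂ Y D h
  have m1 : kK ≤ max (max kK kG) (max kQ (KI + 1)) := by omega
  have m2 : kG ≤ max (max kK kG) (max kQ (KI + 1)) := by omega
  have m3 : kQ ≤ max (max kK kG) (max kQ (KI + 1)) := by omega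
  have m4 : KI + 1 ≤ max (max kK kG) (max kQ (KI + 1)) := by omega
  have hn' : 1 ≤ n := by omega
  have h0 : ∀ x, ipm s₁ s₁ x ≠ 0 := by
    intro x
    have h1 := ipm_ge hδ0.le (by linarith) d2 (fun i j => near_one h x i j)
    have h2 : 0 < ipm s₁ s₁ x := by linarith
    exact h2.ne'
  have hge := GE Ω s₁ s₂ P₁ P₂ G₁ G₂ Y D (RP_mono2 h m2 hδG)
  have hX0 : 0 ≤ ∑ i, ∑ j, n2 (tfC s₁ (Vt s₁ s₂ P₁ P₂ D) i j) :=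
    Finset.sum_nonneg fun _ _ => Finset.sum_nonneg fun _ _ => n2_nonneg _
  obtain ⟨y, hy⟩ : ∃ z : ℝ, z = (∑ i, ∑ j, n2 (tfC s₁ (Vt s₁ s₂ P₁ P₂ D) i j)) ^ (1 / 16 : ℝ) :=
    ⟨_, rfl⟩
  have hyn : 0 ≤ y := by rw [hy]; exact Real.rpow_nonneg hX0 _
  have hX : ∑ i, ∑ j, n2 (tfC s₁ (Vt s₁ s₂ P₁ P₂ D) i j) = y ^ 16 := by
    rw [hy, ← Real.rpow_natCast, ← Real.rpow_mul hX0]
    norm_num
  have hQB : ∀ J : ℝ, 0 ≤ J → (∀ i j, ClC 1 J (Zt s₁ s₂ P₁ P₂ i j)) →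
      (∀ a, ClC 2 J (D a)) → ∀ i x a b, ‖Qt s₁ s₂ G₁ G₂ i x a b‖ ≤ CQ * J :=
    QB Ω s₁ s₂ P₁ P₂ G₁ G₂ Y D (RP_mono2 h m3 hδQ)
  rcases hyn.eq_or_lt with hy' | hypos
  · -- everything vanishes
    refine jr_zero hn' d7 h ?_ ?_
    · refine hge.trans (le_of_eq ?_)
      rw [hX, ← hy']
      norm_num
    · intro hz hd
      have := hQB 0 le_rfl hz hd
      simpa using this
  · exfalso
    rw [hX] at hge
    exact jr_quant hn' hCK hdK htK KEY hCG hCI ITP hz1 hz10 hb1 hb10 hj1 hj2 hj20 hr hA2 hA20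
      hy00 hyA hy01 hyT hCX hCX0 hδ0 hδK d1 d2 d3 d4 d5 d6 m1 m4 h h0 hge hX hQB hypos

end Vale.Agent.P088.PJ.H341
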